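import Vale.Agent.P329.R2.H162.Str
import Vale.Agent.P329.H647.Sym
import Mathlib.GroupTheory.Congruence.Basic

/-!
Finite monoids with abelian subgroups: the height is at most the length of the longest chain of
idempotents with nontrivial maximal subgroups.
-/

set_option linter.all false

namespace Vale.Agent.P329.H162.Chain

open Vale.Agent.P329 Vale.Agent.P329.H647 Vale.Agent.P329.H96 Vale.Agent.P329.H162.Str

section mon

variable {M : Type} [Monoid M]

/-- `g` lies in the maximal subgroup of the idempotent `e` -/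
def InG (e g : M) : Prop := e * g = g ∧ g * e = g ∧ ∃ h, g * h = e ∧ h * g = e

/-- `e` is an idempotent with a nontrivial maximal subgroup -/
def NT (e : M) : Prop := e * e = e ∧ ∃ g, InG e g ∧ g ≠ e

/-- `Ch n e`: there is a strictly descending chain of `n` idempotents with nontrivial maximal
subgroups, the last one being `e` -/
inductive Ch : ℕ → M → Prop
  | one {e : M} (h : NT e) : Ch 1 e
  | succ {n : ℕ} {f e : M} (h : Ch n f) (he : NT e) (h1 : f * e = e) (h2 : e * f = e)
      (h3 : e ≠ f) : Ch (n + 1) e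

theorem Ch.nt {n : ℕ} {e : M} (h : Ch n e) : NT e := by
  cases h with
  | one h => exact h
  | succ _ he _ _ _ => exact he

theorem idem_pow {e : M} (he : e * e = e) {k : ℕ} (hk : 0 < k) : e ^ k = e := by
  obtain ⟨j, rfl⟩ := Nat.exists_eq_succ_of_ne_zero hk.ne'
  induction j with
  | zero => exact pow_one e
  | succ j ih => rw [pow_succ, ih (Nat.succ_pos j), he]

theorem InG.inv {e g : M} (h : InG e g) (he : e * e = e) :
    ∃ h, e * h = h ∧ h * e = h ∧ g * h = e ∧ h * g = e := by
  obtain ⟨h1, h2, k, h3, h4⟩ := h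
  refine ⟨e * k * e, ?_, ?_, ?_, ?_⟩
  · rw [← mul_assoc, ← mul_assoc, he]
  · rw [mul_assoc, he]
  · rw [← mul_assoc, ← mul_assoc, h2, h3, he]
  · rw [mul_assoc, h1, mul_assoc, h4, he]

theorem InG.power [Finite M] {e g : M} (h : InG e g) (he : e * e = e) :
    ∀ k, 0 < k → g ^ k * g ^ k = g ^ k → g ^ k = e := by
  obtain ⟨k', h5, h6, h3, h4⟩ := h.inv he
  obtain ⟨h1, h2, -⟩ := h
  have key : ∀ k, g ^ (k + 1) * k' ^ (k + 1) = e := by
    intro k
    induction k with
    | zero => rw [pow_one, pow_one]; exact h3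
    | succ k ih =>
      rw [pow_succ g (k + 1), pow_succ' k' (k + 1), mul_assoc, ← mul_assoc g k', h3]
      rw [pow_succ' k' k, ← mul_assoc e, h5, ← pow_succ']
      exact ih
  intro k hk hid
  obtain ⟨j, rfl⟩ := Nat.exists_eq_succ_of_ne_zero hk.ne'
  have h7 : g ^ (j + 1) * e = g ^ (j + 1) := by rw [pow_succ, mul_assoc, h2]
  calc g ^ (j + 1) = g ^ (j + 1) * e := h7.symm
    _ = g ^ (j + 1) * (g ^ (j + 1) * k' ^ (j + 1)) := by rw [key]
    _ = g ^ (j + 1) * g ^ (j + 1) * k' ^ (j + 1) := (mul_assoc _ _ _).symm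
    _ = g ^ (j + 1) * k' ^ (j + 1) := by rw [hid]
    _ = e := key j

theorem InG.of_pow {f z : M} (h1 : f * z = z) (h2 : z * f = z) (hf : f * f = f) {k : ℕ}
    (hk : 0 < k) (h : z ^ k = f) : InG f z := by
  obtain ⟨j, rfl⟩ := Nat.exists_eq_succ_of_ne_zero hk.ne'
  refine ⟨h1, h2, z ^ j * f, ?_, ?_⟩
  · rw [← mul_assoc, ← pow_succ', h, hf]
  · rw [mul_assoc, h1, ← pow_succ, h]

theorem lift {N : Type} [Monoid N] [Finite M] [Finite N] (π : M →* N)
    (hπ : Function.Surjective π) (e : M) (he : e * e = e) (h' : N) (hh : h' * h' = h')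
    (h1 : π e * h' = h') (h2 : h' * π e = h') :
    ∃ f : M, f * f = f ∧ e * f = f ∧ f * e = f ∧ π f = h' ∧
      ∀ x', InG h' x' → ∃ x, InG f x ∧ π x = x' := by
  classical
  have key : ∀ (n : ℕ) (f : M), Nat.card {x : M // f * x * f = x} ≤ n → f * f = f → e * f = f →
      f * e = f → π f = h' → ∃ f : M, f * f = f ∧ e * f = f ∧ f * e = f ∧ π f = h' ∧
        ∀ x', InG h' x' → ∃ x, InG f x ∧ π x = x' := by
    intro n
    induction n with
    | zero =>
      intro f hn hf _ _ _
      have : Nonempty {x : M // f * x * f = x} := ⟨⟨f, by rw [hf, hf]⟩⟩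
      have : 0 < Nat.card {x : M // f * x * f = x} := Nat.card_pos
      omega
    | succ n ih =>
      intro f hn hf h3 h4 h5
      by_cases hl : ∀ x', InG h' x' → ∃ x, InG f x ∧ π x = x'
      · exact ⟨f, hf, h3, h4, h5, hl⟩
      · push Not at hl
        obtain ⟨x', hx', hl⟩ := hl
        obtain ⟨m, hm⟩ := hπ x'
        obtain ⟨k, hk, hid⟩ := exists_idem (f * m * f)
        have hz1 : f * (f * m * f) = f * m * f := by rw [← mul_assoc, ← mul_assoc, hf]
        have hz2 : (f * m * f) * f = f * m * f := by rw [mul_assoc, hf]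
        have hπz : π (f * m * f) = x' := by
          rw [map_mul, map_mul, h5, hm, hx'.1, hx'.2.1]
        set z := f * m * f with hz
        obtain ⟨j, hj⟩ := Nat.exists_eq_succ_of_ne_zero hk.ne'
        have h6 : f * z ^ k = z ^ k := by rw [hj, pow_succ', ← mul_assoc, hz1]
        have h7 : z ^ k * f = z ^ k := by rw [hj, pow_succ, mul_assoc, hz2]
        have hne : z ^ k ≠ f := by
          intro h8
          exact hl z (InG.of_pow hz1 hz2 hf hk h8) hπz
        have h8 : π (z ^ k) = h' := by
          rw [map_pow, hπz]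
          refine hx'.power hh k hk ?_
          have h9 := congrArg π hid
          rw [map_mul, map_pow, hπz] at h9
          exact h9
        refine ih (z ^ k) ?_ hid ?_ ?_ h8
        · have h9 : Nat.card {x : M // z ^ k * x * z ^ k = x} <
              Nat.card {x : M // f * x * f = x} := by
            have := Fintype.ofFinite M
            rw [Nat.card_eq_fintype_card, Nat.card_eq_fintype_card]
            refine Fintype.card_lt_of_injective_of_notMem
              (fun x => (⟨x.1, ?_⟩ : {x : M // f * x * f = x})) ?_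
              (b := ⟨f, by rw [hf, hf]⟩) ?_
            · have h10 := x.2
              rw [← h10]
              calc f * (z ^ k * x.1 * z ^ k) * f = (f * z ^ k) * x.1 * (z ^ k * f) := by
                    simp only [mul_assoc]
                _ = z ^ k * x.1 * z ^ k := by rw [h6, h7]
            · intro x y hxy
              have h12 := congrArg (fun t : {x : M // f * x * f = x} => t.1) hxy
              exact Subtype.ext h12
            · rintro ⟨x, hx⟩
              have h10 : x.1 = f := congrArg Subtype.val hx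
              have h11 := x.2
              rw [h10, h7, hid] at h11
              exact hne h11
          omega
        · rw [← h6, ← mul_assoc, h3]
        · rw [← h7, mul_assoc, h4]
  obtain ⟨m, hm⟩ := hπ h'
  obtain ⟨k, hk, hid⟩ := exists_idem (e * m * e)
  have hz1 : e * (e * m * e) = e * m * e := by rw [← mul_assoc, ← mul_assoc, he]
  have hz2 : (e * m * e) * e = e * m * e := by rw [mul_assoc, he]
  have hπz : π (e * m * e) = h' := by rw [map_mul, map_mul, hm, h1, h2]
  obtain ⟨j, hj⟩ := Nat.exists_eq_succ_of_ne_zero hk.ne'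
  refine key _ ((e * m * e) ^ k) le_rfl hid ?_ ?_ ?_
  · rw [hj, pow_succ', ← mul_assoc, hz1]
  · rw [hj, pow_succ, mul_assoc, hz2]
  · rw [map_pow, hπz, idem_pow hh hk]

theorem Ch.lift {N : Type} [Monoid N] [Finite M] [Finite N] (π : M →* N)
    (hπ : Function.Surjective π) {n : ℕ} {e' : N} (h : Ch n e') :
    ∃ f : M, Ch n f ∧ f * f = f ∧ π f = e' ∧ ∀ x', InG e' x' → ∃ x, InG f x ∧ π x = x' := by
  induction h with
  | one h =>
    rename_i e'
    obtain ⟨f, hf, -, -, h4, h5⟩ := Chain.lift π hπ 1 (one_mul 1) e' h.1 (by rw [map_one, one_mul])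
      (by rw [map_one, mul_one])
    obtain ⟨g', hg', hne⟩ := h.2
    obtain ⟨g, hg, hgg⟩ := h5 g' hg'
    exact ⟨f, Ch.one ⟨hf, g, hg, fun h6 => hne (by rw [← hgg, h6, h4])⟩, hf, h4, h5⟩
  | succ h he h1 h2 h3 ih =>
    rename_i n f' e'
    obtain ⟨f₀, hc, hf₀, h6, -⟩ := ih
    obtain ⟨f, hf, h7, h8, h4, h5⟩ := Chain.lift π hπ f₀ hf₀ e' he.1 (by rw [h6, h1])
      (by rw [h6, h2])
    obtain ⟨g', hg', hne⟩ := he.2
    obtain ⟨g, hg, hgg⟩ := h5 g' hg'
    refine ⟨f, Ch.succ hc ⟨hf, g, hg, fun h9 => hne (by rw [← hgg, h9, h4])⟩ h7 h8 ?_, hf, h4, h5⟩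
    intro h9
    exact h3 (by rw [← h4, h9, h6])

end mon

section act

variable {M : Type} [Monoid M]

/-- the right class of `e` -/
def St (e : M) : Type := {y : M // e * y = y ∧ ∃ u, y * u = e}

instance St.instFin [Finite M] (e : M) : Finite (St e) := Subtype.finite

open Classical in
/-- action on the right class with a sink -/
noncomputable def ac (e : M) (o : Option (St e)) (m : M) : Option (St e) :=
  o.elim none fun y =>
    if h : ∃ u, y.1 * m * u = e then some ⟨y.1 * m, by rw [← mul_assoc, y.2.1], h⟩ else none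

theorem ac_none (e m : M) : ac e none m = none := rfl

theorem ac_pos {e : M} {y : St e} {m : M} (h : ∃ u, y.1 * m * u = e) :
    ac e (some y) m = some ⟨y.1 * m, by rw [← mul_assoc, y.2.1], h⟩ := dif_pos h

theorem ac_neg {e : M} {y : St e} {m : M} (h : ¬ ∃ u, y.1 * m * u = e) :
    ac e (some y) m = none := dif_neg h

theorem ac_mul (e : M) (o : Option (St e)) (m n : M) : ac e (ac e o m) n = ac e o (m * n) := by
  rcases o with _ | y
  · rfl
  · by_cases h : ∃ u, y.1 * m * u = e
    · rw [ac_pos h]
      by_cases h' : ∃ u, y.1 * (m * n) * u = e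
      · have h'' : ∃ u, y.1 * m * n * u = e := by rw [mul_assoc y.1 m n]; exact h'
        rw [ac_pos h', ac_pos (y := ⟨y.1 * m, _⟩) h'']
        congr 1
        exact Subtype.ext (mul_assoc _ _ _)
      · have h'' : ¬ ∃ u, y.1 * m * n * u = e := by rw [mul_assoc y.1 m n]; exact h'
        rw [ac_neg h', ac_neg (y := ⟨y.1 * m, _⟩) h'']
    · have h' : ¬ ∃ u, y.1 * (m * n) * u = e := by
        rintro ⟨u, hu⟩
        exact h ⟨n * u, by simp only [mul_assoc] at hu ⊢; exact hu⟩
      rw [ac_neg h, ac_neg h']
      rfl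

theorem ac_one (e : M) (o : Option (St e)) : ac e o 1 = o := by
  rcases o with _ | y
  · rfl
  · have h : ∃ u, y.1 * 1 * u = e := by rw [mul_one]; exact y.2.2
    rw [ac_pos h]
    congr 1
    exact Subtype.ext (mul_one _)

theorem ac_run {α : Type} (φ : α → M) (e : M) (w : List α) : ∀ o : Option (St e),
    w.foldl (fun o a => ac e o (φ a)) o = ac e o (ev φ w) := by
  induction w with
  | nil => intro o; exact (ac_one e o).symm
  | cons a w ih =>
    intro o
    rw [List.foldl_cons, ih, ac_mul, ev_cons]

variable {e : M}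

theorem ld_left (he : e * e = e) (x : Str.LD e) : e * x.1 = x.1 := by
  obtain ⟨v, hv⟩ := x.2.2
  rw [← hv, ← mul_assoc, he]

theorem ld_right (he : e * e = e) (x : Str.LD e) : x.1 * e = x.1 := by
  obtain ⟨v, hv⟩ := x.2.1
  rw [← hv, mul_assoc, he]

theorem ld_mul (he : e * e = e) (x y : Str.LD e) : (x * y).1 = x.1 * y.1 :=
  Str.LD.mul_val x y (ld_left he y)

/-- the group acts on the right class -/
noncomputable def gact (he : e * e = e) (g : (Str.LD e)ˣ) (o : Option (St e)) : Option (St e) :=
  o.elim none fun y => some ⟨(g : Str.LD e).1 * y.1, by rw [← mul_assoc, ld_left he], by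
    obtain ⟨u, hu⟩ := y.2.2
    refine ⟨u * ((g⁻¹ : (Str.LD e)ˣ) : Str.LD e).1, ?_⟩
    have h1 : (g : Str.LD e).1 * y.1 * (u * ((g⁻¹ : (Str.LD e)ˣ) : Str.LD e).1) =
        (g : Str.LD e).1 * (y.1 * u) * ((g⁻¹ : (Str.LD e)ˣ) : Str.LD e).1 := by simp only [mul_assoc]
    rw [h1, hu, ld_right he, ← ld_mul he, Units.mul_inv]
    exact Str.LD.one_val⟩

/-- the group acts on the right class -/
@[reducible] noncomputable def gmul (he : e * e = e) : MulAction (Str.LD e)ˣ (Option (St e)) where
  smul := gact he
  one_smul o := by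
    rcases o with _ | y
    · rfl
    · refine congrArg some (Subtype.ext ?_)
      change ((1 : (Str.LD e)ˣ) : Str.LD e).1 * y.1 = y.1
      rw [Units.val_one, Str.LD.one_val]
      exact y.2.1
  mul_smul g h o := by
    rcases o with _ | y
    · rfl
    · refine congrArg some (Subtype.ext ?_)
      change ((g * h : (Str.LD e)ˣ) : Str.LD e).1 * y.1 = (g : Str.LD e).1 * ((h : Str.LD e).1 * y.1)
      rw [Units.val_mul, ld_mul he, mul_assoc]

theorem gact_ac (he : e * e = e) (g : (Str.LD e)ˣ) (o : Option (St e)) (m : M) :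
    ac e (gact he g o) m = gact he g (ac e o m) := by
  rcases o with _ | y
  · rfl
  · have hiff : (∃ u, (g : Str.LD e).1 * y.1 * m * u = e) ↔ ∃ u, y.1 * m * u = e := by
      constructor
      · rintro ⟨u, hu⟩
        refine ⟨u * (g : Str.LD e).1, ?_⟩
        have h1 : ((g⁻¹ : (Str.LD e)ˣ) : Str.LD e).1 * (g : Str.LD e).1 = e := by
          rw [← ld_mul he, Units.inv_mul]
          exact Str.LD.one_val
        have h2 : e * (y.1 * m * (u * (g : Str.LD e).1)) = y.1 * m * (u * (g : Str.LD e).1) := by
          simp only [← mul_assoc]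
          rw [y.2.1]
        rw [← h2]
        nth_rewrite 1 [← h1]
        have h3 : ((g⁻¹ : (Str.LD e)ˣ) : Str.LD e).1 * (g : Str.LD e).1 *
            (y.1 * m * (u * (g : Str.LD e).1)) = ((g⁻¹ : (Str.LD e)ˣ) : Str.LD e).1 *
              (((g : Str.LD e).1 * y.1 * m * u) * (g : Str.LD e).1) := by simp only [mul_assoc]
        rw [h3, hu, ld_left he, h1]
      · rintro ⟨u, hu⟩
        refine ⟨u * ((g⁻¹ : (Str.LD e)ˣ) : Str.LD e).1, ?_⟩
        have h1 : (g : Str.LD e).1 * y.1 * m * (u * ((g⁻¹ : (Str.LD e)ˣ) : Str.LD e).1) =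
            (g : Str.LD e).1 * (y.1 * m * u) * ((g⁻¹ : (Str.LD e)ˣ) : Str.LD e).1 := by
          simp only [mul_assoc]
        rw [h1, hu, ld_right he, ← ld_mul he, Units.mul_inv]
        exact Str.LD.one_val
    by_cases h : ∃ u, y.1 * m * u = e
    · rw [ac_pos h]
      refine (ac_pos (y := ⟨(g : Str.LD e).1 * y.1, _⟩) (hiff.2 h)).trans ?_
      refine congrArg some (Subtype.ext ?_)
      change (g : Str.LD e).1 * y.1 * m = (g : Str.LD e).1 * (y.1 * m)
      rw [mul_assoc]
    · rw [ac_neg h]
      exact ac_neg (y := ⟨(g : Str.LD e).1 * y.1, _⟩) (fun h' => h (hiff.1 h'))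

/-- a chain ending in `f` is continued, if `f` has a group element which moves an orbit -/
theorem extend {n : ℕ} {f g : M} (he : NT e) (hf : f * f = f) (hc : Ch n f) (hg : InG f g)
    (y : M) (hy : e * y = y) (hyf : y * f = y) (hu : ∃ u, y * u = e)
    (hmove : ¬ ∃ h : (Str.LD e)ˣ, (h : Str.LD e).1 * y = y * g) : ∃ e₂ : M, Ch (n + 1) e₂ := by
  obtain ⟨u₀, hu₀⟩ := hu
  -- `u = f u₀`
  have hu : y * (f * u₀) = e := by rw [← mul_assoc, hyf, hu₀]
  have hfu : f * (f * u₀) = f * u₀ := by rw [← mul_assoc, hf]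
  set u := f * u₀ with hudef
  obtain ⟨hee, g₀, hg₀, hne⟩ := he
  obtain ⟨h₀, a1, a2, a3, a4⟩ := hg₀.inv hee
  have b1 : g₀ * e = g₀ := hg₀.2.1
  have b2 : e * g₀ = g₀ := hg₀.1
  have hid : (u * y) * (u * y) = u * y := by
    have : (u * y) * (u * y) = u * (y * u) * y := by simp only [mul_assoc]
    rw [this, hu, mul_assoc, hy]
  have h1 : f * (u * y) = u * y := by rw [← mul_assoc, hfu]
  have h2 : (u * y) * f = u * y := by rw [mul_assoc, hyf]
  refine ⟨u * y, Ch.succ hc ⟨hid, u * g₀ * y, ⟨?_, ?_, u * h₀ * y, ?_, ?_⟩, ?_⟩ h1 h2 ?_⟩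
  · have : u * y * (u * g₀ * y) = u * (y * u) * g₀ * y := by simp only [mul_assoc]
    rw [this, hu, mul_assoc u e g₀, b2]
  · have : u * g₀ * y * (u * y) = u * g₀ * (y * u) * y := by simp only [mul_assoc]
    rw [this, hu, mul_assoc u g₀ e, b1]
  · have : u * g₀ * y * (u * h₀ * y) = u * (g₀ * ((y * u) * h₀)) * y := by simp only [mul_assoc]
    rw [this, hu, a1, a3, mul_assoc, hy]
  · have : u * h₀ * y * (u * g₀ * y) = u * (h₀ * ((y * u) * g₀)) * y := by simp only [mul_assoc]
    rw [this, hu, b2, a4, mul_assoc, hy]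
  · intro h3
    have h4 : y * (u * g₀ * y) * u = y * (u * y) * u := by rw [h3]
    have h5 : y * (u * g₀ * y) * u = (y * u) * g₀ * (y * u) := by simp only [mul_assoc]
    have h6 : y * (u * y) * u = (y * u) * (y * u) := by simp only [mul_assoc]
    rw [h5, h6, hu, b2, b1, hee] at h4
    exact hne h4
  · intro h3
    obtain ⟨g', c1, c2, c3, c4⟩ := hg.inv hf
    refine hmove ⟨⟨⟨y * g * u, ⟨y * g * u, ?_⟩, ⟨y * g * u, ?_⟩⟩,
      ⟨y * g' * u, ⟨y * g' * u, ?_⟩, ⟨y * g' * u, ?_⟩⟩, ?_, ?_⟩, ?_⟩
    · have : y * g * u * e = y * g * (u * e) := mul_assoc _ _ _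
      rw [this]
      have : u * e = u := by rw [← hu, ← mul_assoc, h3, hfu]
      rw [this]
    · have : e * (y * g * u) = e * y * g * u := by simp only [mul_assoc]
      rw [this, hy]
    · have : y * g' * u * e = y * g' * (u * e) := mul_assoc _ _ _
      rw [this]
      have : u * e = u := by rw [← hu, ← mul_assoc, h3, hfu]
      rw [this]
    · have : e * (y * g' * u) = e * y * g' * u := by simp only [mul_assoc]
      rw [this, hy]
    · refine Subtype.ext ((ld_mul hee _ _).trans ?_)
      change y * g * u * (y * g' * u) = e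
      have : y * g * u * (y * g' * u) = y * (g * ((u * y) * g')) * u := by simp only [mul_assoc]
      rw [this, h3, c1, c3, hyf, hu]
    · refine Subtype.ext ((ld_mul hee _ _).trans ?_)
      change y * g' * u * (y * g * u) = e
      have : y * g' * u * (y * g * u) = y * (g' * ((u * y) * g)) * u := by simp only [mul_assoc]
      rw [this, h3, hg.1, c4, hyf, hu]
    · change y * g * u * y = y * g
      rw [mul_assoc, h3, mul_assoc, hg.2.1]

/-- the congruence: equal actions up to the group -/
def cg (he : e * e = e) : Con M where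
  r m n := ∀ x : Option (St e), ∃ g : (Str.LD e)ˣ, gact he g (ac e x n) = ac e x m
  iseqv := by
    refine ⟨fun m x => ⟨1, ?_⟩, fun {m n} h x => ?_, fun {m n k} h h' x => ?_⟩
    · exact (gmul he).one_smul _
    · obtain ⟨g, hg⟩ := h x
      refine ⟨g⁻¹, ?_⟩
      rw [← hg]
      letI := gmul he
      exact inv_smul_smul g (ac e x n)
    · obtain ⟨g, hg⟩ := h x
      obtain ⟨g', hg'⟩ := h' x
      refine ⟨g * g', ?_⟩
      rw [← hg, ← hg']
      exact (gmul he).mul_smul g g' _
  mul' := by
    intro m n m' n' h h' x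
    obtain ⟨g, hg⟩ := h x
    obtain ⟨g', hg'⟩ := h' (ac e x n)
    refine ⟨g * g', ?_⟩
    rw [← ac_mul e x m m', ← hg, gact_ac he, ← hg', ac_mul]
    exact (gmul he).mul_smul g g' _

end act

/-- Finite monoids with abelian subgroups and without chains of `d + 1` idempotents with nontrivial
maximal subgroups have height at most `d`. -/
theorem chain_bound : ∀ (d : ℕ) (M : Type) [Monoid M] [Finite M],
    (∀ e : M, e * e = e → ∀ x y : M, InG e x → InG e y → x * y = y * x) →
    (¬ ∃ e : M, Ch (d + 1) e) → Recog d M := by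
  classical
  intro d
  induction d with
  | zero =>
    intro M _ _ _ hch α _ φ
    refine straubing (h := 0) (fun _ : α => (1 : Unit)) ?_ φ ?_
    · intro S
      by_cases h1 : (1 : Unit) ∈ S
      · refine Eq.mp (congrArg (SH 0) ?_) (SH.univ (k := 0) (α := α))
        ext w
        exact ⟨fun _ => h1, fun _ => trivial⟩
      · refine Eq.mp (congrArg (SH 0) ?_) (SH.empty (k := 0) (α := α))
        ext w
        exact ⟨fun h => absurd h (Set.notMem_empty _), fun h => absurd h h1⟩
    · intro v _ _
      obtain ⟨k, hk, hid⟩ := exists_idem (v.map φ).prod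
      refine ⟨k, ?_⟩
      by_contra hne
      refine hch ⟨(v.map φ).prod ^ k, Ch.one ⟨hid, (v.map φ).prod ^ (k + 1), ?_, hne⟩⟩
      set z := (v.map φ).prod with hz
      have h1 : z ^ k * z ^ (k + 1) = z ^ (k + 1) := by rw [pow_succ, ← mul_assoc, hid]
      have h2 : z ^ (k + 1) * z ^ k = z ^ (k + 1) := by
        rw [pow_succ', mul_assoc, hid]
      refine InG.of_pow h1 h2 hid hk ?_
      rw [← pow_mul, Nat.mul_comm, pow_mul]
      exact (pow_succ (z ^ k) k).trans (by
        rw [idem_pow hid hk, hid])
  | succ d ih =>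
    intro M _ _ hab hch α _ φ
    -- the automata
    have hA : ∀ e : M, NT e → Aut (d + 1) (fun (o : Option (St e)) a => ac e o (φ a)) := by
      intro e he
      have hee := he.1
      letI := gmul hee
      have : Finite (Str.LD e)ˣ := inferInstance
      refine aut_symm (G := (Str.LD e)ˣ) (k := 1) (fun g x a => gact_ac hee g x (φ a)) ?_ ?_
      · rw [derivedSeries_one, commutator_eq_bot_iff_center_eq_top, eq_top_iff]
        intro x _
        rw [Subgroup.mem_center_iff]
        intro y
        have hin : ∀ z : (Str.LD e)ˣ, InG e (z : Str.LD e).1 := by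
          intro z
          refine ⟨ld_left hee _, ld_right hee _, ((z⁻¹ : (Str.LD e)ˣ) : Str.LD e).1, ?_, ?_⟩
          · rw [← ld_mul hee, Units.mul_inv]; exact Str.LD.one_val
          · rw [← ld_mul hee, Units.inv_mul]; exact Str.LD.one_val
        refine Units.ext (Subtype.ext ?_)
        rw [Units.val_mul, Units.val_mul, ld_mul hee, ld_mul hee]
        exact hab e hee _ _ (hin y) (hin x)
      · -- the orbits
        have hfin : Finite (cg hee).Quotient := Quotient.finite _
        have hsurj : Function.Surjective ((cg hee).mk' : M →* (cg hee).Quotient) :=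
          Con.mk'_surjective
        have h1 : Recog d (cg hee).Quotient := by
          refine ih _ ?_ ?_
          · intro e' he' x' y' hx' hy'
            obtain ⟨f, hf, -, -, h4, h5⟩ := Chain.lift (cg hee).mk' hsurj 1 (one_mul 1) e' he'
              (by rw [map_one, one_mul]) (by rw [map_one, mul_one])
            obtain ⟨x, hx, rfl⟩ := h5 x' hx'
            obtain ⟨y, hy, rfl⟩ := h5 y' hy'
            rw [← map_mul, ← map_mul, hab f hf x y hx hy]
          · rintro ⟨e', he'⟩
            obtain ⟨f, hc, hf, h4, h5⟩ := Ch.lift (cg hee).mk' hsurj he'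
            obtain ⟨g', hg', hne⟩ := he'.nt.2
            obtain ⟨g, hg, hgg⟩ := h5 g' hg'
            refine hch ?_
            have hnr : ¬ (cg hee) g f := by
              intro h6
              refine hne ?_
              rw [← hgg, ← h4]
              exact (Con.eq _).2 h6
            have hnr' : ¬ ∀ x : Option (St e), ∃ k : (Str.LD e)ˣ,
                gact hee k (ac e x f) = ac e x g := hnr
            push Not at hnr'
            obtain ⟨x, hx⟩ := hnr'
            rcases x with _ | y
            · exact absurd rfl (hx 1)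
            · by_cases h6 : ∃ u, y.1 * f * u = e
              · have h7 : ∃ u, y.1 * g * u = e := by
                  obtain ⟨u, hu⟩ := h6
                  obtain ⟨k, c1, c2, c3, c4⟩ := hg.inv hf
                  refine ⟨k * u, ?_⟩
                  have : y.1 * g * (k * u) = y.1 * (g * k) * u := by simp only [mul_assoc]
                  rw [this, c3, hu]
                refine extend he hf hc hg (y.1 * f) (by rw [← mul_assoc, y.2.1])
                  (by rw [mul_assoc, hf]) h6 ?_
                rintro ⟨k, hk⟩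
                refine hx k ?_
                rw [ac_pos h6, ac_pos h7]
                refine congrArg some (Subtype.ext ?_)
                change (k : Str.LD e).1 * (y.1 * f) = y.1 * g
                rw [hk, mul_assoc, hg.1]
              · have h7 : ¬ ∃ u, y.1 * g * u = e := by
                  rintro ⟨u, hu⟩
                  refine h6 ⟨g * u, ?_⟩
                  have : y.1 * f * (g * u) = y.1 * (f * g) * u := by simp only [mul_assoc]
                  rw [this, hg.1, hu]
                refine absurd ?_ (hx 1)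
                rw [ac_neg h6, ac_neg h7]
                rfl
        intro x y
        refine Eq.mp (congrArg (SH d) ?_) (h1 α (fun a => (cg hee).mk' (φ a))
          {q | ∃ m : M, (cg hee).mk' m = q ∧ ac e x m ∈ MulAction.orbit (Str.LD e)ˣ y})
        ext w
        change (∃ m : M, (cg hee).mk' m = (w.map fun a => (cg hee).mk' (φ a)).prod ∧
          ac e x m ∈ MulAction.orbit (Str.LD e)ˣ y) ↔
            w.foldl (fun o a => ac e o (φ a)) x ∈ MulAction.orbit (Str.LD e)ˣ y
        have h2 : (w.map fun a => (cg hee).mk' (φ a)).prod = (cg hee).mk' (ev φ w) := by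
          unfold ev
          rw [map_list_prod, List.map_map]
          rfl
        rw [h2, ac_run]
        constructor
        · rintro ⟨m, hm, g, hg⟩
          have h3 : (cg hee) m (ev φ w) := (Con.eq _).1 hm
          obtain ⟨k, hk⟩ := h3 x
          refine ⟨k⁻¹ * g, ?_⟩
          change (k⁻¹ * g) • y = _
          have hg' : g • y = ac e x m := hg
          rw [mul_smul, hg', ← hk]
          exact inv_smul_smul k _
        · intro hw
          exact ⟨_, rfl, hw⟩
    -- all together
    let F : α → ∀ e : {e : M // NT e}, (Function.End (Option (St e.1)))ᵐᵒᵖ :=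
      fun a e => MulOpposite.op fun o => ac e.1 o (φ a)
    have hF : ∀ (w : List α) (e : {e : M // NT e}) (o : Option (St e.1)),
        ((w.map F).prod e).unop o = ac e.1 o (ev φ w) := by
      intro w e
      induction w with
      | nil => intro o; exact (ac_one e.1 o).symm
      | cons a w ihw =>
        intro o
        rw [List.map_cons, List.prod_cons, ev_cons, ← ac_mul, ← ihw]
        rfl
    have hfe : ∀ e : {e : M // NT e}, Finite (Function.End (Option (St e.1)))ᵐᵒᵖ := fun e =>
      haveI : Finite (Function.End (Option (St e.1))) :=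
        inferInstanceAs (Finite (Option (St e.1) → Option (St e.1)))
      Finite.of_equiv _ MulOpposite.opEquiv
    have hfN : Finite (∀ e : {e : M // NT e}, (Function.End (Option (St e.1)))ᵐᵒᵖ) :=
      Pi.finite
    refine straubing F ?_ φ ?_
    · intro S
      have h1 : SH (d + 1) (⋃ n : (∀ e : {e : M // NT e}, (Function.End (Option (St e.1)))ᵐᵒᵖ),
          ⋃ _ : n ∈ S, ⋂ e : {e : M // NT e}, ⋂ o : Option (St e.1),
            {w : List α | w.foldl (fun o a => ac e.1 o (φ a)) o = (n e).unop o}) :=
        SH.iUnion fun n => SH.iUnion_prop fun _ => SH.iInter fun e => SH.iInter fun o =>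
          hA e.1 e.2 o _
      refine Eq.mp (congrArg (SH (d + 1)) ?_) h1
      ext w
      simp only [Set.mem_iUnion, Set.mem_iInter, exists_prop, Set.mem_ofPred_eq]
      constructor
      · rintro ⟨n, hn, h2⟩
        have h3 : (w.map F).prod = n := by
          funext e
          refine MulOpposite.unop_injective (funext fun o => ?_)
          rw [hF, ← ac_run, h2]
        rw [h3]; exact hn
      · intro hw
        refine ⟨_, hw, fun e o => ?_⟩
        rw [hF, ac_run]
    · intro v _ hid
      set z := (v.map φ).prod with hz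
      obtain ⟨k, hk, hzk⟩ := exists_idem z
      refine ⟨k, ?_⟩
      by_contra hne
      have h1 : z ^ k * z ^ (k + 1) = z ^ (k + 1) := by rw [pow_succ, ← mul_assoc, hzk]
      have h2 : z ^ (k + 1) * z ^ k = z ^ (k + 1) := by
        rw [pow_succ', mul_assoc, hzk]
      have hin : InG (z ^ k) (z ^ (k + 1)) := by
        refine InG.of_pow h1 h2 hzk hk ?_
        rw [← pow_mul, Nat.mul_comm, pow_mul]
        exact (pow_succ (z ^ k) k).trans (by rw [idem_pow hzk hk, hzk])
      have hnt : NT (z ^ k) := ⟨hzk, _, hin, hne⟩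
      -- the action at the idempotent
      have h3 : ∀ o : Option (St (z ^ k)), ac (z ^ k) (ac (z ^ k) o z) z = ac (z ^ k) o z := by
        intro o
        have h4 := congrArg (fun q : (∀ e : {e : M // NT e},
          (Function.End (Option (St e.1)))ᵐᵒᵖ) => (q ⟨z ^ k, hnt⟩).unop o) hid
        have h5 : ((v.map F).prod ⟨z ^ k, hnt⟩).unop (((v.map F).prod ⟨z ^ k, hnt⟩).unop o) =
            ((v.map F).prod ⟨z ^ k, hnt⟩).unop o := h4
        rw [hF, hF] at h5
        exact h5
      have h4 : ∀ j (o : Option (St (z ^ k))), ac (z ^ k) o (z ^ (j + 1)) = ac (z ^ k) o z := by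
        intro j
        induction j with
        | zero => intro o; rw [pow_one]
        | succ j ihj =>
          intro o
          rw [pow_succ, ← ac_mul, ihj, h3]
      have hst : z ^ k * z ^ k = z ^ k ∧ ∃ u, z ^ k * u = z ^ k := ⟨hzk, z ^ k, hzk⟩
      have h5 : ac (z ^ k) (some ⟨z ^ k, hst⟩) (z ^ (k + 1)) =
          ac (z ^ k) (some ⟨z ^ k, hst⟩) (z ^ k) := by
        obtain ⟨j, hj⟩ := Nat.exists_eq_succ_of_ne_zero hk.ne'
        rw [h4]
        have h6 := h4 j (some ⟨z ^ k, hst⟩)
        have h7 : z ^ (j + 1) = z ^ k := by rw [hj]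
        rw [h7] at h6
        exact h6.symm
      obtain ⟨q, c1, c2, c3, c4⟩ := hin.inv hzk
      have h6 : ∃ u, z ^ k * z ^ (k + 1) * u = z ^ k := ⟨q, by rw [h1, c3]⟩
      have h7 : ∃ u, z ^ k * z ^ k * u = z ^ k := ⟨z ^ k, by rw [hzk, hzk]⟩
      rw [ac_pos (y := ⟨z ^ k, hst⟩) h6, ac_pos (y := ⟨z ^ k, hst⟩) h7] at h5
      have h8 : z ^ k * z ^ (k + 1) = z ^ k * z ^ k :=
        congrArg Subtype.val (Option.some_injective _ h5)
      rw [h1, hzk] at h8
      exact hne h8

end Vale.Agent.P329.H162.Chain
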