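import Vale.Agent.P329.R2.H162.Chain
import Mathlib.GroupTheory.Solvable

/-!
Finite monoids with solvable subgroups: the height is at most the largest sum of the derived lengths
of the maximal subgroups along a chain of idempotents.
-/

set_option linter.all false

namespace Vale.Agent.P329.H162.Chain

open Vale.Agent.P329 Vale.Agent.P329.H647 Vale.Agent.P329.H96 Vale.Agent.P329.H162.Str

section solv

variable {M : Type} [Monoid M]

/-- The maximal subgroup of the idempotent `e`, that is the group of units of the local monoid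
`Str.LD e` of the elements `x` with `x = e x = x e`, has derived length at most `k`. -/
def DL (k : ℕ) (e : M) : Prop := derivedSeries (Str.LD e)ˣ k = ⊥

/-- `WCh n e`: there is a strictly descending chain of idempotents ending in `e`, and numbers which
are positive and at most the derived lengths of the maximal subgroups of these idempotents, with
sum `n` -/
inductive WCh : ℕ → M → Prop
  | one {k : ℕ} {e : M} (he : e * e = e) (hk : ¬ DL k e) : WCh (k + 1) e
  | succ {n k : ℕ} {f e : M} (h : WCh n f) (he : e * e = e) (hk : ¬ DL k e) (h1 : f * e = e)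
      (h2 : e * f = e) (h3 : e ≠ f) : WCh (n + (k + 1)) e

theorem inG_unit {e : M} (he : e * e = e) (z : (Str.LD e)ˣ) : InG e (z : Str.LD e).1 := by
  refine ⟨ld_left he _, ld_right he _, ((z⁻¹ : (Str.LD e)ˣ) : Str.LD e).1, ?_, ?_⟩
  · rw [← ld_mul he, Units.mul_inv]; exact Str.LD.one_val
  · rw [← ld_mul he, Units.inv_mul]; exact Str.LD.one_val

theorem unit_inG {e g : M} (he : e * e = e) (h : InG e g) :
    ∃ z : (Str.LD e)ˣ, (z : Str.LD e).1 = g := by
  obtain ⟨k, a1, a2, a3, a4⟩ := h.inv he
  refine ⟨⟨⟨g, ⟨g, h.2.1⟩, ⟨g, h.1⟩⟩, ⟨k, ⟨k, a2⟩, ⟨k, a1⟩⟩, ?_, ?_⟩, rfl⟩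
  · exact Subtype.ext ((ld_mul he _ _).trans a3)
  · exact Subtype.ext ((ld_mul he _ _).trans a4)

theorem nt_of {k : ℕ} {e : M} (he : e * e = e) (h : ¬ DL k e) : ∃ g, InG e g ∧ g ≠ e := by
  by_contra hn
  push Not at hn
  refine h ?_
  unfold DL
  rw [eq_bot_iff]
  intro x _
  rw [Subgroup.mem_bot]
  exact Units.ext (Subtype.ext (hn _ (inG_unit he x)))

theorem surj_bot {G H : Type} [Group G] [Group H] (f : G →* H) (hf : Function.Surjective f)
    {k : ℕ} (h : derivedSeries G k = ⊥) : derivedSeries H k = ⊥ := by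
  rw [← map_derivedSeries_eq hf k, h, Subgroup.map_bot]

/-- the map of the local monoids -/
noncomputable def ldmap {N : Type} [Monoid N] (π : M →* N) {f : M} (hf : f * f = f) {e' : N}
    (h : π f = e') : Str.LD f →* Str.LD e' where
  toFun x := ⟨π x.1, by
    obtain ⟨u, hu⟩ := x.2.1
    exact ⟨π u, by rw [← h, ← map_mul, hu]⟩, by
    obtain ⟨u, hu⟩ := x.2.2
    exact ⟨π u, by rw [← h, ← map_mul, hu]⟩⟩
  map_one' := Subtype.ext h
  map_mul' x y := by
    have he' : e' * e' = e' := by rw [← h, ← map_mul, hf]
    refine Subtype.ext ?_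
    refine Eq.trans ?_ (ld_mul he' _ _).symm
    change π (x * y).1 = π x.1 * π y.1
    rw [ld_mul hf, map_mul]

theorem dl_push {N : Type} [Monoid N] (π : M →* N) {f : M} (hf : f * f = f) {e' : N}
    (h : π f = e') (hl : ∀ x', InG e' x' → ∃ x, InG f x ∧ π x = x') {k : ℕ} (hk : DL k f) :
    DL k e' := by
  have he' : e' * e' = e' := by rw [← h, ← map_mul, hf]
  refine surj_bot (Units.map (ldmap π hf h)) ?_ hk
  intro z'
  obtain ⟨x, hx, hxz⟩ := hl _ (inG_unit he' z')
  obtain ⟨z, hz⟩ := unit_inG hf hx
  refine ⟨z, Units.ext (Subtype.ext ?_)⟩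
  change π (z : Str.LD f).1 = (z' : Str.LD e').1
  rw [hz, hxz]

theorem WCh.lift {N : Type} [Monoid N] [Finite M] [Finite N] (π : M →* N)
    (hπ : Function.Surjective π) {n : ℕ} {e' : N} (h : WCh n e') :
    ∃ f : M, WCh n f ∧ f * f = f ∧ π f = e' ∧ (∀ x', InG e' x' → ∃ x, InG f x ∧ π x = x') ∧
      ∃ g', InG e' g' ∧ g' ≠ e' := by
  induction h with
  | one he hk =>
    rename_i k e'
    obtain ⟨f, hf, -, -, h4, h5⟩ := Chain.lift π hπ 1 (one_mul 1) e' he (by rw [map_one, one_mul])
      (by rw [map_one, mul_one])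
    exact ⟨f, WCh.one hf (fun h6 => hk (dl_push π hf h4 h5 h6)), hf, h4, h5, nt_of he hk⟩
  | succ h he hk h1 h2 h3 ih =>
    rename_i n k f' e'
    obtain ⟨f₀, hc, hf₀, h6, -, -⟩ := ih
    obtain ⟨f, hf, h7, h8, h4, h5⟩ := Chain.lift π hπ f₀ hf₀ e' he (by rw [h6, h1])
      (by rw [h6, h2])
    refine ⟨f, WCh.succ hc hf (fun h9 => hk (dl_push π hf h4 h5 h9)) h7 h8 ?_, hf, h4, h5,
      nt_of he hk⟩
    intro h9
    exact h3 (by rw [← h4, h9, h6])

/-- the weight is carried over to a conjugate idempotent -/
theorem dl_conj {e y u : M} (he : e * e = e) (hy : e * y = y) (hue : u * e = u) (hu : y * u = e)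
    {k : ℕ} (hk : DL k (u * y)) : DL k e := by
  have hid : (u * y) * (u * y) = u * y := by
    have : (u * y) * (u * y) = u * (y * u) * y := by simp only [mul_assoc]
    rw [this, hu, hue]
  let θ : Str.LD (u * y) →* Str.LD e :=
    { toFun := fun x => ⟨y * x.1 * u, ⟨y * x.1 * u, by rw [mul_assoc, hue]⟩,
        ⟨y * x.1 * u, by rw [← mul_assoc, ← mul_assoc, hy]⟩⟩
      map_one' := by
        refine Subtype.ext ?_
        change y * (u * y) * u = e
        have : y * (u * y) * u = (y * u) * (y * u) := by simp only [mul_assoc]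
        rw [this, hu, he]
      map_mul' := by
        intro x x'
        refine Subtype.ext ?_
        refine Eq.trans ?_ (ld_mul he _ _).symm
        change y * (x * x').1 * u = y * x.1 * u * (y * x'.1 * u)
        rw [ld_mul hid]
        have : y * x.1 * u * (y * x'.1 * u) = y * (x.1 * (u * y) * x'.1) * u := by
          simp only [mul_assoc]
        rw [this, ld_right hid] }
  refine surj_bot (Units.map θ) ?_ hk
  intro z
  have hz := inG_unit he z
  obtain ⟨h₀, a1, a2, a3, a4⟩ := hz.inv he
  have b1 := hz.2.1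
  have b2 := hz.1
  have hin : InG (u * y) (u * (z : Str.LD e).1 * y) := by
    refine ⟨?_, ?_, u * h₀ * y, ?_, ?_⟩
    · have : u * y * (u * (z : Str.LD e).1 * y) = u * ((y * u) * (z : Str.LD e).1) * y := by
        simp only [mul_assoc]
      rw [this, hu, b2]
    · have : u * (z : Str.LD e).1 * y * (u * y) = u * ((z : Str.LD e).1 * (y * u)) * y := by
        simp only [mul_assoc]
      rw [this, hu, b1]
    · have : u * (z : Str.LD e).1 * y * (u * h₀ * y) =
          u * ((z : Str.LD e).1 * ((y * u) * h₀)) * y := by simp only [mul_assoc]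
      rw [this, hu, a1, a3, hue]
    · have : u * h₀ * y * (u * (z : Str.LD e).1 * y) =
          u * (h₀ * ((y * u) * (z : Str.LD e).1)) * y := by simp only [mul_assoc]
      rw [this, hu, b2, a4, hue]
  obtain ⟨t, ht⟩ := unit_inG hid hin
  refine ⟨t, Units.ext (Subtype.ext ?_)⟩
  change y * (t : Str.LD (u * y)).1 * u = (z : Str.LD e).1
  rw [ht]
  have : y * (u * (z : Str.LD e).1 * y) * u = (y * u) * (z : Str.LD e).1 * (y * u) := by
    simp only [mul_assoc]
  rw [this, hu, b2, b1]

/-- a chain ending in `f` is continued, if `f` has a group element which moves an orbit -/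
theorem wextend {n k : ℕ} {e f g : M} (hee : e * e = e) (hk : ¬ DL k e) (hf : f * f = f)
    (hc : WCh n f) (hg : InG f g) (y : M) (hy : e * y = y) (hyf : y * f = y)
    (hu : ∃ u, y * u = e) (hmove : ¬ ∃ h : (Str.LD e)ˣ, (h : Str.LD e).1 * y = y * g) :
    ∃ e₂ : M, WCh (n + (k + 1)) e₂ := by
  obtain ⟨u₀, hu₀⟩ := hu
  obtain ⟨u, hu, hfu, hue⟩ : ∃ u, y * u = e ∧ f * u = u ∧ u * e = u := by
    refine ⟨f * u₀ * e, ?_, ?_, ?_⟩
    · rw [← mul_assoc, ← mul_assoc, hyf, hu₀, hee]
    · rw [← mul_assoc, ← mul_assoc, hf]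
    · rw [mul_assoc, hee]
  have hid : (u * y) * (u * y) = u * y := by
    have : (u * y) * (u * y) = u * (y * u) * y := by simp only [mul_assoc]
    rw [this, hu, hue]
  have h1 : f * (u * y) = u * y := by rw [← mul_assoc, hfu]
  have h2 : (u * y) * f = u * y := by rw [mul_assoc, hyf]
  refine ⟨u * y, WCh.succ hc hid (fun h => hk (dl_conj hee hy hue hu h)) h1 h2 ?_⟩
  intro h3
  obtain ⟨g', c1, c2, c3, c4⟩ := hg.inv hf
  have hin : InG e (y * g * u) := by
    refine ⟨?_, ?_, y * g' * u, ?_, ?_⟩
    · rw [← mul_assoc, ← mul_assoc, hy]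
    · rw [mul_assoc, hue]
    · have : y * g * u * (y * g' * u) = y * (g * ((u * y) * g')) * u := by simp only [mul_assoc]
      rw [this, h3, c1, c3, hyf, hu]
    · have : y * g' * u * (y * g * u) = y * (g' * ((u * y) * g)) * u := by simp only [mul_assoc]
      rw [this, h3, hg.1, c4, hyf, hu]
  obtain ⟨z, hz⟩ := unit_inG hee hin
  refine hmove ⟨z, ?_⟩
  rw [hz, mul_assoc, h3, mul_assoc, hg.2.1]

end solv

/-- Finite monoids with solvable subgroups: if the sum of the derived lengths of the maximal
subgroups along each chain of idempotents is at most `d`, then the height is at most `d`. -/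
theorem solv_chain_bound : ∀ (d : ℕ) (M : Type) [Monoid M] [Finite M],
    (∀ e : M, e * e = e → ∃ k, DL k e) → (∀ (n : ℕ) (e : M), WCh n e → n ≤ d) → Recog d M := by
  classical
  intro d
  induction d using Nat.strong_induction_on with
  | h d ih =>
    intro M _ _ hsol hch α _ φ
    -- the automata
    have hA : ∀ e : M, NT e → Aut d (fun (o : Option (St e)) a => ac e o (φ a)) := by
      intro e he
      have hee := he.1
      letI := gmul hee
      have : Finite (Str.LD e)ˣ := inferInstance
      obtain ⟨k, hk, hk'⟩ : ∃ k, ¬ DL k e ∧ DL (k + 1) e := by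
        have hex := hsol e hee
        have h1 := Nat.find_spec hex
        have h0 : Nat.find hex ≠ 0 := by
          intro h0
          rw [h0] at h1
          obtain ⟨g, hg, hne⟩ := he.2
          obtain ⟨z, hz⟩ := unit_inG hee hg
          have h2 : derivedSeries (Str.LD e)ˣ 0 = ⊥ := h1
          rw [derivedSeries_zero] at h2
          have h3 : z ∈ (⊤ : Subgroup (Str.LD e)ˣ) := trivial
          rw [h2, Subgroup.mem_bot] at h3
          refine hne ?_
          rw [← hz, h3, Units.val_one, Str.LD.one_val]
        obtain ⟨k, hk⟩ := Nat.exists_eq_succ_of_ne_zero h0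
        refine ⟨k, Nat.find_min hex (by omega), ?_⟩
        rw [hk] at h1
        exact h1
      have hkd : k + 1 ≤ d := hch _ e (WCh.one hee hk)
      obtain ⟨d', rfl⟩ := Nat.exists_eq_add_of_le' hkd
      refine aut_symm (G := (Str.LD e)ˣ) (k := k + 1) (fun g x a => gact_ac hee g x (φ a)) hk' ?_
      -- the orbits
      have hfin : Finite (cg hee).Quotient := Quotient.finite _
      have hsurj : Function.Surjective ((cg hee).mk' : M →* (cg hee).Quotient) :=
        Con.mk'_surjective
      have h1 : Recog d' (cg hee).Quotient := by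
        refine ih d' (by omega) _ ?_ ?_
        · intro e' he'
          obtain ⟨f, hf, -, -, h4, h5⟩ := Chain.lift (cg hee).mk' hsurj 1 (one_mul 1) e' he'
            (by rw [map_one, one_mul]) (by rw [map_one, mul_one])
          obtain ⟨K, hK⟩ := hsol f hf
          exact ⟨K, dl_push (cg hee).mk' hf h4 h5 hK⟩
        · intro n e' he'
          obtain ⟨f, hc, hf, h4, h5, g', hg', hne⟩ := WCh.lift (cg hee).mk' hsurj he'
          obtain ⟨g, hg, hgg⟩ := h5 g' hg'
          have hex : ∃ e₂ : M, WCh (n + (k + 1)) e₂ := by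
            have hnr : ¬ (cg hee) g f := by
              intro h6
              refine hne ?_
              rw [← hgg, ← h4]
              exact (Con.eq _).2 h6
            have hnr' : ¬ ∀ x : Option (St e), ∃ k : (Str.LD e)ˣ,
                gact hee k (ac e x f) = ac e x g := hnr
            push Not at hnr'
            obtain ⟨x, hx⟩ := hnr'
            rcases x with _ | y
            · exact absurd rfl (hx 1)
            · by_cases h6 : ∃ u, y.1 * f * u = e
              · have h7 : ∃ u, y.1 * g * u = e := by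
                  obtain ⟨u, hu⟩ := h6
                  obtain ⟨k, c1, c2, c3, c4⟩ := hg.inv hf
                  refine ⟨k * u, ?_⟩
                  have : y.1 * g * (k * u) = y.1 * (g * k) * u := by simp only [mul_assoc]
                  rw [this, c3, hu]
                refine wextend hee hk hf hc hg (y.1 * f) (by rw [← mul_assoc, y.2.1])
                  (by rw [mul_assoc, hf]) h6 ?_
                rintro ⟨k, hk⟩
                refine hx k ?_
                rw [ac_pos h6, ac_pos h7]
                refine congrArg some (Subtype.ext ?_)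
                change (k : Str.LD e).1 * (y.1 * f) = y.1 * g
                rw [hk, mul_assoc, hg.1]
              · have h7 : ¬ ∃ u, y.1 * g * u = e := by
                  rintro ⟨u, hu⟩
                  refine h6 ⟨g * u, ?_⟩
                  have : y.1 * f * (g * u) = y.1 * (f * g) * u := by simp only [mul_assoc]
                  rw [this, hg.1, hu]
                refine absurd ?_ (hx 1)
                rw [ac_neg h6, ac_neg h7]
                rfl
          obtain ⟨e₂, he₂⟩ := hex
          have h8 := hch _ e₂ he₂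
          omega
      intro x y
      refine Eq.mp (congrArg (SH d') ?_) (h1 α (fun a => (cg hee).mk' (φ a))
        {q | ∃ m : M, (cg hee).mk' m = q ∧ ac e x m ∈ MulAction.orbit (Str.LD e)ˣ y})
      ext w
      change (∃ m : M, (cg hee).mk' m = (w.map fun a => (cg hee).mk' (φ a)).prod ∧
        ac e x m ∈ MulAction.orbit (Str.LD e)ˣ y) ↔
          w.foldl (fun o a => ac e o (φ a)) x ∈ MulAction.orbit (Str.LD e)ˣ y
      have h2 : (w.map fun a => (cg hee).mk' (φ a)).prod = (cg hee).mk' (ev φ w) := by
        unfold ev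
        rw [map_list_prod, List.map_map]
        rfl
      rw [h2, ac_run]
      constructor
      · rintro ⟨m, hm, g, hg⟩
        have h3 : (cg hee) m (ev φ w) := (Con.eq _).1 hm
        obtain ⟨k, hk⟩ := h3 x
        refine ⟨k⁻¹ * g, ?_⟩
        change (k⁻¹ * g) • y = _
        have hg' : g • y = ac e x m := hg
        rw [mul_smul, hg', ← hk]
        exact inv_smul_smul k _
      · intro hw
        exact ⟨_, rfl, hw⟩
    -- all together
    let F : α → ∀ e : {e : M // NT e}, (Function.End (Option (St e.1)))ᵐᵒᵖ :=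
      fun a e => MulOpposite.op fun o => ac e.1 o (φ a)
    have hF : ∀ (w : List α) (e : {e : M // NT e}) (o : Option (St e.1)),
        ((w.map F).prod e).unop o = ac e.1 o (ev φ w) := by
      intro w e
      induction w with
      | nil => intro o; exact (ac_one e.1 o).symm
      | cons a w ihw =>
        intro o
        rw [List.map_cons, List.prod_cons, ev_cons, ← ac_mul, ← ihw]
        rfl
    have hfe : ∀ e : {e : M // NT e}, Finite (Function.End (Option (St e.1)))ᵐᵒᵖ := fun e =>
      haveI : Finite (Function.End (Option (St e.1))) :=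
        inferInstanceAs (Finite (Option (St e.1) → Option (St e.1)))
      Finite.of_equiv _ MulOpposite.opEquiv
    have hfN : Finite (∀ e : {e : M // NT e}, (Function.End (Option (St e.1)))ᵐᵒᵖ) :=
      Pi.finite
    refine straubing F ?_ φ ?_
    · intro S
      have h1 : SH d (⋃ n : (∀ e : {e : M // NT e}, (Function.End (Option (St e.1)))ᵐᵒᵖ),
          ⋃ _ : n ∈ S, ⋂ e : {e : M // NT e}, ⋂ o : Option (St e.1),
            {w : List α | w.foldl (fun o a => ac e.1 o (φ a)) o = (n e).unop o}) :=
        SH.iUnion fun n => SH.iUnion_prop fun _ => SH.iInter fun e => SH.iInter fun o =>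
          hA e.1 e.2 o _
      refine Eq.mp (congrArg (SH d) ?_) h1
      ext w
      simp only [Set.mem_iUnion, Set.mem_iInter, exists_prop, Set.mem_ofPred_eq]
      constructor
      · rintro ⟨n, hn, h2⟩
        have h3 : (w.map F).prod = n := by
          funext e
          refine MulOpposite.unop_injective (funext fun o => ?_)
          rw [hF, ← ac_run, h2]
        rw [h3]; exact hn
      · intro hw
        refine ⟨_, hw, fun e o => ?_⟩
        rw [hF, ac_run]
    · intro v _ hid
      set z := (v.map φ).prod with hz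
      obtain ⟨k, hk, hzk⟩ := exists_idem z
      refine ⟨k, ?_⟩
      by_contra hne
      have h1 : z ^ k * z ^ (k + 1) = z ^ (k + 1) := by rw [pow_succ, ← mul_assoc, hzk]
      have h2 : z ^ (k + 1) * z ^ k = z ^ (k + 1) := by
        rw [pow_succ', mul_assoc, hzk]
      have hin : InG (z ^ k) (z ^ (k + 1)) := by
        refine InG.of_pow h1 h2 hzk hk ?_
        rw [← pow_mul, Nat.mul_comm, pow_mul]
        exact (pow_succ (z ^ k) k).trans (by rw [idem_pow hzk hk, hzk])
      have hnt : NT (z ^ k) := ⟨hzk, _, hin, hne⟩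
      -- the action at the idempotent
      have h3 : ∀ o : Option (St (z ^ k)), ac (z ^ k) (ac (z ^ k) o z) z = ac (z ^ k) o z := by
        intro o
        have h4 := congrArg (fun q : (∀ e : {e : M // NT e},
          (Function.End (Option (St e.1)))ᵐᵒᵖ) => (q ⟨z ^ k, hnt⟩).unop o) hid
        have h5 : ((v.map F).prod ⟨z ^ k, hnt⟩).unop (((v.map F).prod ⟨z ^ k, hnt⟩).unop o) =
            ((v.map F).prod ⟨z ^ k, hnt⟩).unop o := h4
        rw [hF, hF] at h5
        exact h5
      have h4 : ∀ j (o : Option (St (z ^ k))), ac (z ^ k) o (z ^ (j + 1)) = ac (z ^ k) o z := by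
        intro j
        induction j with
        | zero => intro o; rw [pow_one]
        | succ j ihj =>
          intro o
          rw [pow_succ, ← ac_mul, ihj, h3]
      have hst : z ^ k * z ^ k = z ^ k ∧ ∃ u, z ^ k * u = z ^ k := ⟨hzk, z ^ k, hzk⟩
      have h5 : ac (z ^ k) (some ⟨z ^ k, hst⟩) (z ^ (k + 1)) =
          ac (z ^ k) (some ⟨z ^ k, hst⟩) (z ^ k) := by
        obtain ⟨j, hj⟩ := Nat.exists_eq_succ_of_ne_zero hk.ne'
        rw [h4]
        have h6 := h4 j (some ⟨z ^ k, hst⟩)
        have h7 : z ^ (j + 1) = z ^ k := by rw [hj]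
        rw [h7] at h6
        exact h6.symm
      obtain ⟨q, c1, c2, c3, c4⟩ := hin.inv hzk
      have h6 : ∃ u, z ^ k * z ^ (k + 1) * u = z ^ k := ⟨q, by rw [h1, c3]⟩
      have h7 : ∃ u, z ^ k * z ^ k * u = z ^ k := ⟨z ^ k, by rw [hzk, hzk]⟩
      rw [ac_pos (y := ⟨z ^ k, hst⟩) h6, ac_pos (y := ⟨z ^ k, hst⟩) h7] at h5
      have h8 : z ^ k * z ^ (k + 1) = z ^ k * z ^ k :=
        congrArg Subtype.val (Option.some_injective _ h5)
      rw [h1, hzk] at h8
      exact hne h8

end Vale.Agent.P329.H162.Chain
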