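import Vale.Agent.P329.R3.H96.Defs
import Vale.Agent.P329.Bdl.B1
import Mathlib.Algebra.Group.Units.Basic
import Mathlib.Algebra.Group.Idempotent
import Mathlib.GroupTheory.OrderOfElement
import Mathlib.Data.Fintype.Pigeonhole

/-!
A map of the letters to a finite monoid which is aperiodic over the idempotents of another map: all
its languages are in the closure of the languages of the other map under the Boolean operations and
concatenation. The proof is by local divisors.
-/

set_option linter.all false

namespace Vale.Agent.P329.H162.Str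

open Vale.Agent.P329 Vale.Agent.P329.H647 Vale.Agent.P329.H96

/-- value of a word -/
def ev {α M : Type} [Monoid M] (φ : α → M) (w : List α) : M := (w.map φ).prod

section ev

variable {α M : Type} [Monoid M] (φ : α → M)

theorem ev_nil : ev φ [] = 1 := rfl

theorem ev_cons (a : α) (w : List α) : ev φ (a :: w) = φ a * ev φ w := by
  unfold ev
  rw [List.map_cons, List.prod_cons]

theorem ev_append (u v : List α) : ev φ (u ++ v) = ev φ u * ev φ v := by
  unfold ev
  rw [List.map_append, List.prod_append]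

/-- repetition -/
def rep (w : List α) : ℕ → List α
  | 0 => []
  | k + 1 => rep w k ++ w

theorem ev_rep (w : List α) (k : ℕ) : ev φ (rep w k) = ev φ w ^ k := by
  induction k with
  | zero => rw [pow_zero]; rfl
  | succ k ih => rw [rep, ev_append, ih, pow_succ]

end ev

/-- words over a set of letters -/
def W {α : Type} (B : Finset α) : Set (List α) := {w | ∀ x ∈ w, x ∈ B}

theorem W_append {α : Type} {B : Finset α} {u v : List α} (hu : u ∈ W B) (hv : v ∈ W B) :
    u ++ v ∈ W B := by
  intro x hx
  rcases List.mem_append.1 hx with h | h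
  · exact hu x h
  · exact hv x h

theorem W_rep {α : Type} {B : Finset α} {w : List α} (hw : w ∈ W B) (k : ℕ) : rep w k ∈ W B := by
  induction k with
  | zero => intro x hx; cases hx
  | succ k ih => exact W_append ih hw

/-- closure of the languages of a map under the Boolean operations and concatenation -/
inductive Cl {α N : Type} [Monoid N] (ψ : α → N) : Set (List α) → Prop
  | atom (S : Set N) : Cl ψ {w | ev ψ w ∈ S}
  | eps : Cl ψ {[]}
  | single (a : α) : Cl ψ {[a]}
  | union {A B : Set (List α)} : Cl ψ A → Cl ψ B → Cl ψ (A ∪ B)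
  | compl {A : Set (List α)} : Cl ψ A → Cl ψ Aᶜ
  | cat {A B : Set (List α)} : Cl ψ A → Cl ψ B → Cl ψ (Vale.Agent.P329.cat A B)

namespace Cl

variable {α N : Type} [Monoid N] {ψ : α → N} {A B : Set (List α)}

theorem congr (h : A = B) (hA : Cl ψ A) : Cl ψ B := h ▸ hA

theorem univ : Cl ψ (Set.univ : Set (List α)) := by
  refine congr ?_ (Cl.atom (ψ := ψ) Set.univ)
  ext w
  exact ⟨fun _ => trivial, fun _ => trivial⟩

theorem empty : Cl ψ (∅ : Set (List α)) := by
  refine congr ?_ (Cl.univ (ψ := ψ)).compl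
  rw [Set.compl_univ]

theorem inter (hA : Cl ψ A) (hB : Cl ψ B) : Cl ψ (A ∩ B) := by
  have := (hA.compl.union hB.compl).compl
  rwa [Set.compl_union, compl_compl, compl_compl] at this

theorem iUnion {ι : Type} [Finite ι] {L : ι → Set (List α)} (h : ∀ i, Cl ψ (L i)) :
    Cl ψ (⋃ i, L i) := by
  classical
  have := Fintype.ofFinite ι
  have key : ∀ s : Finset ι, Cl ψ (⋃ i ∈ s, L i) := by
    intro s
    induction s using Finset.induction_on with
    | empty => exact congr (by simp) Cl.empty
    | insert a s _ ih =>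
      refine congr ?_ ((h a).union ih)
      ext w
      simp
  exact congr (by simp) (key Finset.univ)

theorem iUnion_prop {p : Prop} {L : Set (List α)} (h : p → Cl ψ L) : Cl ψ (⋃ _ : p, L) := by
  by_cases hp : p
  · simpa [hp] using h hp
  · simpa [hp] using Cl.empty

theorem words [Finite α] (C : Finset α) : Cl ψ (W C) := by
  have h1 : Cl ψ (⋃ a : α, ⋃ _ : ¬ a ∈ C, Vale.Agent.P329.cat Set.univ
      (Vale.Agent.P329.cat {[a]} Set.univ)) :=
    iUnion fun a => iUnion_prop fun _ => univ.cat ((single a).cat univ)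
  refine congr ?_ h1.compl
  ext w
  simp only [Set.compl_iUnion, Set.mem_iInter, Set.mem_compl_iff, mem_cat]
  constructor
  · intro h x hx
    by_contra hpx
    obtain ⟨u, v, rfl⟩ := List.append_of_mem hx
    exact h x hpx ⟨u, trivial, [x] ++ v, ⟨[x], rfl, v, trivial, rfl⟩, rfl⟩
  · rintro h a ha ⟨u, -, v', ⟨u', hu', v, -, rfl⟩, rfl⟩
    rw [Set.mem_singleton_iff] at hu'
    subst hu'
    exact ha (h a (by simp))

/-- the heights do not grow -/
theorem sh {h : ℕ} (hψ : MapLe h ψ) (hA : Cl ψ A) : SH h A := by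
  induction hA with
  | atom S => exact hψ S
  | eps => exact SH.eps
  | single a => exact SH.single a
  | union _ _ h1 h2 => exact h1.union h2
  | compl _ h1 => exact h1.compl
  | cat _ _ h1 h2 => exact h1.cat h2

end Cl

/-- local divisor -/
def LD {M : Type} [Monoid M] (p : M) : Type :=
  {x : M // (∃ u, u * p = x) ∧ ∃ v, p * v = x}

namespace LD

variable {M : Type} [Monoid M] {p : M}

/-- left part -/
noncomputable def l (x : LD p) : M := x.2.1.choose

theorem l_spec (x : LD p) : x.l * p = x.1 := x.2.1.choose_spec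

/-- right part -/
noncomputable def r (x : LD p) : M := x.2.2.choose

theorem r_spec (x : LD p) : p * x.r = x.1 := x.2.2.choose_spec

theorem l_mul (x : LD p) (z : M) : x.l * (p * z) = x.1 * z := by
  rw [← mul_assoc, l_spec]

/-- multiplication -/
noncomputable def mu (x y : LD p) : LD p :=
  ⟨x.l * y.1, ⟨x.l * y.l, by rw [mul_assoc, y.l_spec]⟩,
    ⟨x.r * y.r, by rw [← mul_assoc, x.r_spec, ← y.r_spec, l_mul]⟩⟩

theorem mu_val (x y : LD p) {z : M} (h : p * z = y.1) : (mu x y).1 = x.1 * z := by
  change x.l * y.1 = _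
  rw [← h, l_mul]

/-- identity -/
def on (p : M) : LD p := ⟨p, ⟨1, one_mul p⟩, ⟨1, mul_one p⟩⟩

theorem on_val (p : M) : p * 1 = (on p).1 := mul_one p

noncomputable instance instMon : Monoid (LD p) where
  mul := mu
  one := on p
  mul_assoc x y z := by
    refine Subtype.ext ?_
    change (mu (mu x y) z).1 = (mu x (mu y z)).1
    rw [mu_val (mu x y) z z.r_spec, mu_val x y y.r_spec,
      mu_val x (mu y z) (z := y.r * z.r), mul_assoc]
    rw [mu_val y z z.r_spec, ← mul_assoc, y.r_spec]
  one_mul x := by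
    refine Subtype.ext ?_
    change (mu (on p) x).1 = x.1
    rw [mu_val (on p) x x.r_spec]
    exact x.r_spec
  mul_one x := by
    refine Subtype.ext ?_
    change (mu x (on p)).1 = x.1
    rw [mu_val x (on p) (on_val p), mul_one]

theorem mul_val (x y : LD p) {z : M} (h : p * z = y.1) : (x * y).1 = x.1 * z := mu_val x y h

theorem one_val : (1 : LD p).1 = p := rfl

instance instFin [Finite M] : Finite (LD p) := Subtype.finite

theorem card_lt [Finite M] (hp : ¬ IsUnit p) : Nat.card (LD p) < Nat.card M := by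
  classical
  have := Fintype.ofFinite M
  have := Fintype.ofFinite (LD p)
  rw [Nat.card_eq_fintype_card, Nat.card_eq_fintype_card]
  refine Fintype.card_lt_of_injective_of_notMem (fun x : LD p => x.1) Subtype.val_injective
    (b := 1) ?_
  rintro ⟨x, hx⟩
  change x.1 = 1 at hx
  refine hp ⟨⟨p, x.r, ?_, ?_⟩, rfl⟩
  · rw [x.r_spec, hx]
  · have h2 : x.l * p = 1 := x.l_spec.trans hx
    have h3 : p * x.r = 1 := x.r_spec.trans hx
    have h4 : x.l = x.r := by
      rw [← mul_one x.l, ← h3, ← mul_assoc, h2, one_mul]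
    rw [← h4, h2]

end LD

section blocks

variable {α M N : Type} [Monoid M] [Monoid N] (φ : α → M) (ψ : α → N) (B : Finset α) (c : α)

/-- values of the words over `B` -/
def Tv : Type :=
  {t : M × N // ∃ u : List α, u ∈ W B ∧ ev φ u = t.1 ∧ ev ψ u = t.2}

instance Tv.instFin [Finite M] [Finite N] : Finite (Tv φ ψ B) := Subtype.finite

/-- the letters of the local divisors -/
def f1 (t : Tv φ ψ B) : LD (φ c) :=
  ⟨φ c * t.1.1 * φ c, ⟨φ c * t.1.1, rfl⟩, ⟨t.1.1 * φ c, (mul_assoc _ _ _).symm⟩⟩

/-- the letters of the local divisors -/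
def f2 (t : Tv φ ψ B) : LD (ψ c) :=
  ⟨ψ c * t.1.2 * ψ c, ⟨ψ c * t.1.2, rfl⟩, ⟨t.1.2 * ψ c, (mul_assoc _ _ _).symm⟩⟩

/-- a product of blocks, each ending with `c`, and the word of the values of the blocks -/
inductive Rel : List α → List (Tv φ ψ B) → Prop
  | nil : Rel [] []
  | cons {u : List α} (hu : u ∈ W B) {t : Tv φ ψ B} (h1 : ev φ u = t.1.1) (h2 : ev ψ u = t.1.2)
      {w : List α} {ts : List (Tv φ ψ B)} (h : Rel w ts) : Rel (u ++ c :: w) (t :: ts)

variable {φ ψ B c}

theorem Rel.f1_val {w : List α} {ts : List (Tv φ ψ B)} (h : Rel φ ψ B c w ts) :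
    φ c * ev φ w = (ev (f1 φ ψ B c) ts).1 := by
  induction h with
  | nil => rw [ev_nil, ev_nil, mul_one]; rfl
  | cons hu h1 h2 h ih =>
    rename_i u t w ts
    rw [ev_cons (f1 φ ψ B c), LD.mul_val _ _ ih, ev_append, ev_cons, h1]
    change _ = φ c * t.1.1 * φ c * ev φ w
    rw [mul_assoc, mul_assoc]

theorem Rel.f2_val {w : List α} {ts : List (Tv φ ψ B)} (h : Rel φ ψ B c w ts) :
    ψ c * ev ψ w = (ev (f2 φ ψ B c) ts).1 := by
  induction h with
  | nil => rw [ev_nil, ev_nil, mul_one]; rfl
  | cons hu h1 h2 h ih =>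
    rename_i u t w ts
    rw [ev_cons (f2 φ ψ B c), LD.mul_val _ _ ih, ev_append, ev_cons, h2]
    change _ = ψ c * t.1.2 * ψ c * ev ψ w
    rw [mul_assoc, mul_assoc]

theorem Rel.append {w w' : List α} {ts ts' : List (Tv φ ψ B)} (h : Rel φ ψ B c w ts)
    (h' : Rel φ ψ B c w' ts') : Rel φ ψ B c (w ++ w') (ts ++ ts') := by
  induction h with
  | nil => exact h'
  | cons hu h1 h2 h ih =>
    rw [List.append_assoc, List.cons_append, List.cons_append]
    exact Rel.cons hu h1 h2 ih

theorem Rel.split {ts' : List (Tv φ ψ B)} (ts : List (Tv φ ψ B)) : ∀ {w : List α},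
    Rel φ ψ B c w (ts ++ ts') →
      ∃ u v, Rel φ ψ B c u ts ∧ Rel φ ψ B c v ts' ∧ u ++ v = w := by
  induction ts with
  | nil =>
    intro w h
    exact ⟨[], w, Rel.nil, h, rfl⟩
  | cons t ts ih =>
    intro w h
    rw [List.cons_append] at h
    cases h with
    | cons hu h1 h2 h =>
      rename_i u w'
      obtain ⟨u', v', h3, h4, rfl⟩ := ih h
      refine ⟨u ++ c :: u', v', Rel.cons hu h1 h2 h3, h4, ?_⟩
      rw [List.append_assoc, List.cons_append]

/-- the first block is determined -/
theorem cut_unique (hc : c ∉ B) (u : List α) : ∀ {u' w w' : List α}, u ∈ W B → u' ∈ W B →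
    u ++ c :: w = u' ++ c :: w' → u = u' ∧ w = w' := by
  induction u with
  | nil =>
    intro u' w w' _ hu' h
    cases u' with
    | nil =>
      rw [List.nil_append, List.nil_append, List.cons.injEq] at h
      exact ⟨rfl, h.2⟩
    | cons x u' =>
      rw [List.nil_append, List.cons_append, List.cons.injEq] at h
      exact absurd (hu' x List.mem_cons_self) (h.1 ▸ hc)
  | cons x u ih =>
    intro u' w w' hu hu' h
    cases u' with
    | nil =>
      rw [List.nil_append, List.cons_append, List.cons.injEq] at h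
      exact absurd (hu x List.mem_cons_self) (h.1.symm ▸ hc)
    | cons y u' =>
      rw [List.cons_append, List.cons_append, List.cons.injEq] at h
      obtain ⟨h1, h2⟩ := ih (fun z hz => hu z (List.mem_cons_of_mem _ hz))
        (fun z hz => hu' z (List.mem_cons_of_mem _ hz)) h.2
      exact ⟨by rw [h.1, h1], h2⟩

theorem Rel.unique (hc : c ∉ B) {w : List α} {ts : List (Tv φ ψ B)} (h : Rel φ ψ B c w ts) :
    ∀ {ts' : List (Tv φ ψ B)}, Rel φ ψ B c w ts' → ts = ts' := by
  induction h with
  | nil =>
    intro ts' h'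
    generalize hw : ([] : List α) = w at h'
    cases h' with
    | nil => rfl
    | cons hu h1 h2 h => exact absurd hw.symm (by simp)
  | cons hu h1 h2 h ih =>
    rename_i u t w ts
    intro ts' h'
    generalize hw : u ++ c :: w = w₀ at h'
    cases h' with
    | nil => exact absurd hw (by simp)
    | cons hu' h1' h2' h' =>
      obtain ⟨h3, h4⟩ := cut_unique hc u hu hu' hw
      subst h3
      subst h4
      rw [ih h']
      congr 1
      exact Subtype.ext (Prod.ext (h1.symm.trans h1') (h2.symm.trans h2'))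

/-- pull back -/
def pb (φ : α → M) (ψ : α → N) (B : Finset α) (c : α) (K : Set (List (Tv φ ψ B))) :
    Set (List α) :=
  {w | ∃ ts ∈ K, Rel φ ψ B c w ts}

variable [DecidableEq α]

theorem W_mono {B C : Finset α} (h : B ⊆ C) {w : List α} (hw : w ∈ W B) : w ∈ W C :=
  fun x hx => h (hw x hx)

theorem Rel.mem {w : List α} {ts : List (Tv φ ψ B)} (h : Rel φ ψ B c w ts) :
    w ∈ W (insert c B) := by
  induction h with
  | nil => intro x hx; cases hx
  | cons hu h1 h2 h ih =>
    refine W_append (W_mono (Finset.subset_insert c B) hu) ?_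
    intro x hx
    rcases List.mem_cons.1 hx with rfl | hx
    · exact Finset.mem_insert_self _ _
    · exact ih x hx

theorem Rel.last {w : List α} {ts : List (Tv φ ψ B)} (h : Rel φ ψ B c w ts) :
    w = [] ∨ ∃ w', w' ++ [c] = w := by
  induction h with
  | nil => exact Or.inl rfl
  | cons hu h1 h2 h ih =>
    rename_i u t w ts
    right
    rcases ih with rfl | ⟨w', rfl⟩
    · exact ⟨u, rfl⟩
    · exact ⟨u ++ c :: w', by rw [List.append_assoc, List.cons_append]⟩

/-- the value of a word over `B` -/
def vl (φ : α → M) (ψ : α → N) {B : Finset α} {u : List α} (hu : u ∈ W B) : Tv φ ψ B :=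
  ⟨(ev φ u, ev ψ u), u, hu, rfl, rfl⟩

/-- decomposition at the last `c` -/
theorem decomp (φ : α → M) (ψ : α → N) (w : List α) (hw : w ∈ W (insert c B)) :
    ∃ u v ts, Rel φ ψ B c u ts ∧ v ∈ W B ∧ u ++ v = w := by
  induction w with
  | nil => exact ⟨[], [], [], Rel.nil, (fun x hx => by cases hx), rfl⟩
  | cons x w ih =>
    obtain ⟨u, v, ts, h1, h2, rfl⟩ := ih fun y hy => hw y (List.mem_cons_of_mem _ hy)
    have hnil : ([] : List α) ∈ W B := fun x hx => by cases hx
    by_cases hx : x = c
    · subst hx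
      exact ⟨x :: u, v, vl φ ψ hnil :: ts, Rel.cons (u := []) hnil rfl rfl h1, h2, rfl⟩
    · have hxB : x ∈ B := by
        rcases Finset.mem_insert.1 (hw x List.mem_cons_self) with h | h
        · exact absurd h hx
        · exact h
      cases h1 with
      | nil =>
        refine ⟨[], x :: v, [], Rel.nil, ?_, rfl⟩
        intro y hy
        rcases List.mem_cons.1 hy with rfl | hy
        · exact hxB
        · exact h2 y hy
      | cons hu h3 h4 h5 =>
        rename_i u t w' ts
        have hu' : x :: u ∈ W B := by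
          intro y hy
          rcases List.mem_cons.1 hy with rfl | hy
          · exact hxB
          · exact hu y hy
        exact ⟨x :: u ++ c :: w', v, vl φ ψ hu' :: ts, Rel.cons hu' rfl rfl h5, h2, rfl⟩

/-- the words which are products of blocks -/
theorem pb_univ [Finite α] : Cl ψ (pb φ ψ B c Set.univ) := by
  refine Cl.congr ?_ ((Cl.words (ψ := ψ) (insert c B)).inter
    (Cl.eps.union (Cl.univ.cat (Cl.single c))))
  ext w
  constructor
  · rintro ⟨h1, h2⟩
    rcases h2 with h2 | ⟨w', -, x, hx, rfl⟩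
    · rw [Set.mem_singleton_iff] at h2
      subst h2
      exact ⟨[], trivial, Rel.nil⟩
    · rw [Set.mem_singleton_iff] at hx
      subst hx
      obtain ⟨u, v, ts, h3, h4, rfl⟩ := decomp (c := c) φ ψ w'
        (fun y hy => h1 y (List.mem_append_left _ hy))
      refine ⟨ts ++ [vl φ ψ h4], trivial, ?_⟩
      rw [List.append_assoc]
      exact h3.append (Rel.cons h4 rfl rfl Rel.nil)
  · rintro ⟨ts, -, h⟩
    refine ⟨h.mem, ?_⟩
    rcases h.last with rfl | ⟨w', rfl⟩
    · exact Or.inl rfl
    · exact Or.inr ⟨w', trivial, [c], rfl, rfl⟩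

/-- the closure is pulled back to the closure -/
theorem pb_cl [Finite α] (hc : c ∉ B)
    (hB : ∀ m, Cl ψ {w | w ∈ W B ∧ ev φ w = m}) {K : Set (List (Tv φ ψ B))}
    (hK : Cl (f2 φ ψ B c) K) : Cl ψ (pb φ ψ B c K) := by
  induction hK with
  | atom S =>
    refine Cl.congr ?_ ((pb_univ (φ := φ) (ψ := ψ) (B := B) (c := c)).inter
      (Cl.atom (ψ := ψ) {n | ∃ x ∈ S, ψ c * n = x.1}))
    ext w
    constructor
    · rintro ⟨⟨ts, -, h⟩, ⟨x, hx, h1⟩⟩
      refine ⟨ts, ?_, h⟩
      have h2 : ev (f2 φ ψ B c) ts = x := Subtype.ext (h.f2_val.symm.trans h1)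
      change ev (f2 φ ψ B c) ts ∈ S
      rw [h2]; exact hx
    · rintro ⟨ts, hS, h⟩
      exact ⟨⟨ts, trivial, h⟩, ⟨_, hS, h.f2_val⟩⟩
  | eps =>
    refine Cl.congr ?_ Cl.eps
    ext w
    constructor
    · intro hw
      rw [Set.mem_singleton_iff] at hw
      subst hw
      exact ⟨[], rfl, Rel.nil⟩
    · rintro ⟨ts, hts, h⟩
      rw [Set.mem_singleton_iff] at hts
      subst hts
      cases h
      rfl
  | single t =>
    refine Cl.congr ?_ (((hB t.1.1).inter (Cl.atom (ψ := ψ) {t.1.2})).cat (Cl.single c))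
    ext w
    constructor
    · rintro ⟨u, ⟨⟨h1, h2⟩, h3⟩, v, hv, rfl⟩
      rw [Set.mem_singleton_iff] at hv
      subst hv
      exact ⟨[t], rfl, Rel.cons h1 h2 h3 Rel.nil⟩
    · rintro ⟨ts, hts, h⟩
      rw [Set.mem_singleton_iff] at hts
      subst hts
      cases h with
      | cons hu h1 h2 h =>
        cases h
        exact ⟨_, ⟨⟨hu, h1⟩, h2⟩, [c], rfl, rfl⟩
  | union _ _ h1 h2 =>
    refine Cl.congr ?_ (h1.union h2)
    ext w
    constructor
    · rintro (⟨ts, h3, h4⟩ | ⟨ts, h3, h4⟩)
      · exact ⟨ts, Or.inl h3, h4⟩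
      · exact ⟨ts, Or.inr h3, h4⟩
    · rintro ⟨ts, h3 | h3, h4⟩
      · exact Or.inl ⟨ts, h3, h4⟩
      · exact Or.inr ⟨ts, h3, h4⟩
  | compl _ h1 =>
    refine Cl.congr ?_ ((pb_univ (φ := φ) (ψ := ψ) (B := B) (c := c)).inter h1.compl)
    ext w
    constructor
    · rintro ⟨⟨ts, -, h⟩, h2⟩
      exact ⟨ts, fun h3 => h2 ⟨ts, h3, h⟩, h⟩
    · rintro ⟨ts, h2, h⟩
      refine ⟨⟨ts, trivial, h⟩, ?_⟩
      rintro ⟨ts', h3, h4⟩
      rw [h.unique hc h4] at h2
      exact h2 h3
  | cat _ _ h1 h2 =>
    refine Cl.congr ?_ (h1.cat h2)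
    ext w
    constructor
    · rintro ⟨u, ⟨ts, h3, h4⟩, v, ⟨ts', h5, h6⟩, rfl⟩
      exact ⟨ts ++ ts', ⟨ts, h3, ts', h5, rfl⟩, h4.append h6⟩
    · rintro ⟨ts₀, ⟨ts, h3, ts', h5, rfl⟩, h⟩
      obtain ⟨u, v, h6, h7, rfl⟩ := Rel.split ts h
      exact ⟨u, ⟨ts, h3, h6⟩, v, ⟨ts', h5, h7⟩, rfl⟩

/-- the step with a letter which is not a unit -/
theorem caseL [Finite α] [Finite M] (hc : c ∉ B)
    (hB : ∀ m, Cl ψ {w | w ∈ W B ∧ ev φ w = m})
    (hT : ∀ x, Cl (f2 φ ψ B c) {ts | ev (f1 φ ψ B c) ts = x}) (m : M) :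
    Cl ψ {w | w ∈ W (insert c B) ∧ ev φ w = m} := by
  have h1 : Cl ψ ({w | w ∈ W B ∧ ev φ w = m} ∪ ⋃ a : M, ⋃ b : M, ⋃ x : LD (φ c),
      ⋃ _ : a * x.1 * b = m, cat {w | w ∈ W B ∧ ev φ w = a} (cat {[c]}
        (cat (pb φ ψ B c {ts | ev (f1 φ ψ B c) ts = x}) {w | w ∈ W B ∧ ev φ w = b}))) :=
    (hB m).union (Cl.iUnion fun a => Cl.iUnion fun b => Cl.iUnion fun x =>
      Cl.iUnion_prop fun _ => (hB a).cat ((Cl.single c).cat ((pb_cl hc hB (hT x)).cat (hB b))))
  refine Cl.congr ?_ h1
  ext w
  simp only [Set.mem_union, Set.mem_iUnion, exists_prop]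
  constructor
  · rintro (⟨h2, h3⟩ | ⟨a, b, x, h2, u, ⟨h3, h4⟩, v', ⟨y, hy, z, ⟨v, ⟨ts, h5, h6⟩, r, ⟨h7, h8⟩,
      rfl⟩, rfl⟩, rfl⟩)
    · exact ⟨W_mono (Finset.subset_insert c B) h2, h3⟩
    · rw [Set.mem_singleton_iff] at hy
      subst hy
      refine ⟨W_append (W_mono (Finset.subset_insert c B) h3) (W_append ?_
        (W_append h6.mem (W_mono (Finset.subset_insert c B) h7))), ?_⟩
      · intro y hy
        rw [List.mem_singleton] at hy
        subst hy
        exact Finset.mem_insert_self _ _
      · rw [ev_append, ev_append, ev_append, h4, h8, ev_cons, ev_nil, mul_one,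
          ← mul_assoc (φ c), h6.f1_val, ← mul_assoc]
        have h9 : ev (f1 φ ψ B c) ts = x := h5
        rw [h9]; exact h2
  · rintro ⟨h2, h3⟩
    by_cases hcw : c ∈ w
    · right
      -- the first `c`
      have key : ∀ w : List α, w ∈ W (insert c B) → c ∈ w →
          ∃ u w', u ∈ W B ∧ w' ∈ W (insert c B) ∧ u ++ c :: w' = w := by
        intro w
        induction w with
        | nil => intro _ h; cases h
        | cons x w ih =>
          intro hw hcw
          by_cases hx : x = c
          · subst hx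
            exact ⟨[], w, (fun y hy => by cases hy),
              (fun y hy => hw y (List.mem_cons_of_mem _ hy)), rfl⟩
          · have hxB : x ∈ B := by
              rcases Finset.mem_insert.1 (hw x List.mem_cons_self) with h | h
              · exact absurd h hx
              · exact h
            have hcw' : c ∈ w := by
              rcases List.mem_cons.1 hcw with h | h
              · exact absurd h.symm hx
              · exact h
            obtain ⟨u, w', h4, h5, rfl⟩ := ih (fun y hy => hw y (List.mem_cons_of_mem _ hy)) hcw'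
            refine ⟨x :: u, w', ?_, h5, rfl⟩
            intro y hy
            rcases List.mem_cons.1 hy with rfl | hy
            · exact hxB
            · exact h4 y hy
      obtain ⟨u, w', h4, h5, rfl⟩ := key w h2 hcw
      obtain ⟨v, r, ts, h6, h7, rfl⟩ := decomp (c := c) φ ψ w' h5
      refine ⟨ev φ u, ev φ r, ev (f1 φ ψ B c) ts, ?_, u, ⟨h4, rfl⟩, [c] ++ (v ++ r),
        ⟨[c], rfl, v ++ r, ⟨v, ⟨ts, rfl, h6⟩, r, ⟨h7, rfl⟩, rfl⟩, rfl⟩, rfl⟩
      rw [← h3, ← h6.f1_val, ev_append, ev_cons, ev_append, mul_assoc, mul_assoc]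
    · left
      refine ⟨fun y hy => ?_, h3⟩
      rcases Finset.mem_insert.1 (h2 y hy) with rfl | h
      · exact absurd hy hcw
      · exact h

end blocks

/-- powers of elements of finite monoids become idempotent -/
theorem exists_idem {N : Type} [Monoid N] [Finite N] (x : N) :
    ∃ k, 0 < k ∧ x ^ k * x ^ k = x ^ k := by
  obtain ⟨i, j, hij, he⟩ := Finite.exists_ne_map_eq_of_infinite fun n : ℕ => x ^ n
  wlog h : i < j generalizing i j
  · exact this j i hij.symm he.symm (lt_of_le_of_ne (not_lt.1 h) hij.symm)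
  obtain ⟨p, rfl⟩ := Nat.exists_eq_add_of_lt h
  have he' : x ^ i = x ^ (i + (p + 1)) := he
  have h1 : ∀ s, x ^ (i + (p + 1) * s) = x ^ i := by
    intro s
    induction s with
    | zero => rfl
    | succ s ih =>
      have h2 : i + (p + 1) * (s + 1) = (i + (p + 1) * s) + (p + 1) := by ring
      rw [h2, pow_add, ih, ← pow_add, ← he']
  have h3 : ∀ k s, i ≤ k → x ^ (k + (p + 1) * s) = x ^ k := by
    intro k s hk
    obtain ⟨d, rfl⟩ := Nat.exists_eq_add_of_le hk
    have h4 : i + d + (p + 1) * s = (i + (p + 1) * s) + d := by ring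
    rw [h4, pow_add, h1, ← pow_add]
  refine ⟨(p + 1) * (i + 1), by positivity, ?_⟩
  rw [← pow_add]
  refine h3 _ _ ?_
  nlinarith

/-- the case in which all letters are units -/
theorem caseU {α M N : Type} [Monoid M] [Monoid N] [Finite α] [Finite M] [Finite N] {φ : α → M}
    {ψ : α → N} {B : Finset α}
    (hap : ∀ v : List α, v ≠ [] → v ∈ W B → ev ψ v * ev ψ v = ev ψ v →
      ∃ k, ev φ v ^ (k + 1) = ev φ v ^ k)
    (hU : ∀ a ∈ B, IsUnit (φ a)) (m : M) : Cl ψ {w | w ∈ W B ∧ ev φ w = m} := by
  have hunit : ∀ w : List α, w ∈ W B → IsUnit (ev φ w) := by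
    intro w
    induction w with
    | nil => intro _; exact isUnit_one
    | cons a w ih =>
      intro hw
      rw [ev_cons]
      exact (hU a (hw a List.mem_cons_self)).mul (ih fun y hy => hw y (List.mem_cons_of_mem _ hy))
  refine Cl.congr ?_ ((Cl.words (ψ := ψ) B).inter
    (Cl.atom (ψ := ψ) {n | ∃ v ∈ W B, ev φ v = m ∧ ev ψ v = n}))
  ext w
  constructor
  · rintro ⟨hw, v, hv, h1, h2⟩
    refine ⟨hw, ?_⟩
    obtain ⟨k, hk, hk'⟩ := exists_idem (ev ψ v)
    obtain ⟨l, hl, hl'⟩ := exists_idem (ev φ v)
    have h3 : ev φ v ^ l = 1 := by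
      have := (hunit v hv).pow l
      exact (IsUnit.mul_eq_left this).1 hl'
    -- a common exponent
    have h4 : ev φ v ^ (k * l) = 1 := by rw [Nat.mul_comm, pow_mul, h3, one_pow]
    have h5 : ev ψ v ^ (k * l) * ev ψ v ^ (k * l) = ev ψ v ^ (k * l) := by
      have h6 : IsIdempotentElem (ev ψ v ^ k) := hk'
      rw [pow_mul]
      exact h6.pow l
    obtain ⟨d, hd⟩ : ∃ d, k * l = d + 1 := ⟨k * l - 1, by
      have : 0 < k * l := Nat.mul_pos hk hl
      omega⟩
    rw [hd] at h4 h5
    have h7 : ev φ w * ev φ v ^ d = 1 := by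
      have h8 : ev φ (w ++ rep v d) = ev φ w * ev φ v ^ d := by rw [ev_append, ev_rep]
      have h9 : ev ψ (w ++ rep v d) = ev ψ v ^ (d + 1) := by
        rw [ev_append, ev_rep, pow_succ', ← h2]
      rw [← h8]
      by_cases hne : w ++ rep v d = []
      · rw [hne]; rfl
      · have hmem : w ++ rep v d ∈ W B := W_append hw (W_rep hv d)
        obtain ⟨j, hj⟩ := hap _ hne hmem (by rw [h9]; exact h5)
        have h10 := (hunit _ hmem).pow j
        rw [pow_succ] at hj
        exact (IsUnit.mul_eq_left h10).1 hj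
    have h11 : ev φ v * ev φ v ^ d = 1 := by rw [← pow_succ']; exact h4
    have h12 := (hunit v hv).pow d
    rw [← h1]
    exact h12.mul_right_cancel (h7.trans h11.symm)
  · rintro ⟨hw, h1⟩
    exact ⟨hw, w, hw, h1, rfl⟩

/-- periods two and three -/
theorem aper_two_three {M : Type} [Monoid M] (x : M) (h2 : ∃ k, (x ^ 2) ^ (k + 1) = (x ^ 2) ^ k)
    (h3 : ∃ k, (x ^ 3) ^ (k + 1) = (x ^ 3) ^ k) : ∃ k, x ^ (k + 1) = x ^ k := by
  obtain ⟨k, hk⟩ := h2
  obtain ⟨l, hl⟩ := h3
  rw [← pow_mul, ← pow_mul] at hk hl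
  have h4 : ∀ n, x ^ (2 * k + n + 2) = x ^ (2 * k + n) := by
    intro n
    have h5 : 2 * k + n + 2 = 2 * (k + 1) + n := by ring
    rw [h5, pow_add, hk, ← pow_add]
  have h6 : ∀ n, x ^ (3 * l + n + 3) = x ^ (3 * l + n) := by
    intro n
    have h5 : 3 * l + n + 3 = 3 * (l + 1) + n := by ring
    rw [h5, pow_add, hl, ← pow_add]
  refine ⟨2 * k + 3 * l, ?_⟩
  have h7 := h4 (3 * l + 1)
  have h8 := h6 (2 * k)
  have h9 : 2 * k + (3 * l + 1) + 2 = 3 * l + 2 * k + 3 := by ring
  have h10 : 3 * l + 2 * k = 2 * k + 3 * l := by ring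
  rw [h9, h8, h10] at h7
  rw [h7]
  rfl

/-- Aperiodic over the idempotents of another map. -/
theorem main_aux : ∀ (n : ℕ) (M : Type) [Monoid M] [Finite M], Nat.card M ≤ n →
    ∀ (N : Type) [Monoid N] [Finite N] (α : Type) [Finite α] (φ : α → M) (ψ : α → N)
      (B : Finset α),
      (∀ v : List α, v ≠ [] → v ∈ W B → ev ψ v * ev ψ v = ev ψ v →
        ∃ k, ev φ v ^ (k + 1) = ev φ v ^ k) →
      ∀ m : M, Cl ψ {w | w ∈ W B ∧ ev φ w = m} := by
  classical
  intro n
  induction n with
  | zero =>
    intro M _ _ hM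
    have : 0 < Nat.card M := Nat.card_pos
    omega
  | succ n ihn =>
    intro M _ _ hM N _ _ α _ φ ψ B
    induction B using Finset.strongInduction with
    | H B ihB =>
      intro hap m
      by_cases hU : ∀ a ∈ B, IsUnit (φ a)
      · exact caseU hap hU m
      · push Not at hU
        obtain ⟨c, hcB, hc⟩ := hU
        have h1 : c ∉ B.erase c := Finset.notMem_erase c B
        have h2 : insert c (B.erase c) = B := Finset.insert_erase hcB
        have h3 : B.erase c ⊂ B := Finset.erase_ssubset hcB
        have h4 : ∀ m, Cl ψ {w | w ∈ W (B.erase c) ∧ ev φ w = m} :=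
          ihB _ h3 fun v hv hw => hap v hv (W_mono h3.subset hw)
        have h5 : ∀ x, Cl (f2 φ ψ (B.erase c) c) {ts | ev (f1 φ ψ (B.erase c) c) ts = x} := by
          intro x
          have h6 : Nat.card (LD (φ c)) ≤ n := by
            have := LD.card_lt hc
            omega
          have := Fintype.ofFinite (Tv φ ψ (B.erase c))
          have h7 := ihn (LD (φ c)) h6 (LD (ψ c)) (Tv φ ψ (B.erase c)) (f1 φ ψ (B.erase c) c)
            (f2 φ ψ (B.erase c) c) Finset.univ ?_ x
          · refine Cl.congr ?_ h7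
            ext ts
            exact ⟨fun h => h.2, fun h => ⟨fun y _ => Finset.mem_univ y, h⟩⟩
          · -- inheritance
            intro ts hts _ hid
            have h8 : ∀ ts : List (Tv φ ψ (B.erase c)), ∃ w, Rel φ ψ (B.erase c) c w ts := by
              intro ts
              induction ts with
              | nil => exact ⟨[], Rel.nil⟩
              | cons t ts ih =>
                obtain ⟨w, hw⟩ := ih
                obtain ⟨u, hu, h9, h10⟩ := t.2
                exact ⟨u ++ c :: w, Rel.cons hu h9 h10 hw⟩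
            obtain ⟨w, hw⟩ := h8 ts
            have hwB : w ∈ W B := by
              have := hw.mem
              rwa [h2] at this
            have h9 : ∀ k, Rel φ ψ (B.erase c) c (rep w k) (rep ts k) := by
              intro k
              induction k with
              | zero => exact Rel.nil
              | succ k ih => exact ih.append hw
            -- the values of the powers
            have h10 : ∀ k, (ev (f1 φ ψ (B.erase c) c) ts ^ k).1 = φ c * ev φ w ^ k := by
              intro k
              rw [← ev_rep, ← ev_rep, (h9 k).f1_val]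
            have h11 : ∀ k, (ev (f2 φ ψ (B.erase c) c) ts ^ k).1 = ψ c * ev ψ w ^ k := by
              intro k
              rw [← ev_rep, ← ev_rep, (h9 k).f2_val]
            -- the last letter is `c`
            have h12 : ∃ w', w' ++ [c] = w := by
              rcases hw.last with h | h
              · subst h
                exfalso
                generalize hw' : ([] : List α) = w₀ at hw
                cases hw with
                | nil => exact hts rfl
                | cons hu h1 h2 h => exact absurd hw'.symm (by simp)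
              · exact h
            obtain ⟨w', hw'⟩ := h12
            have h13 : ψ c * ev ψ w ^ 2 = ψ c * ev ψ w := by
              rw [← h11 2, pow_two, hid, ← pow_one (ev (f2 φ ψ (B.erase c) c) ts), h11 1, pow_one]
            have h14 : ev ψ w ^ 3 = ev ψ w ^ 2 := by
              have h15 : ev ψ w = ev ψ w' * ψ c := by
                rw [← hw', ev_append, ev_cons, ev_nil, mul_one]
              calc ev ψ w ^ 3 = ev ψ w * ev ψ w ^ 2 := pow_succ' _ _
                _ = ev ψ w' * (ψ c * ev ψ w ^ 2) := by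
                  nth_rewrite 1 [h15]
                  rw [mul_assoc]
                _ = ev ψ w' * (ψ c * ev ψ w) := by rw [h13]
                _ = ev ψ w * ev ψ w := by
                  rw [← mul_assoc, ← h15]
                _ = ev ψ w ^ 2 := (pow_two _).symm
            have h16 : ∀ j, ev ψ w ^ (j + 2) = ev ψ w ^ 2 := by
              intro j
              induction j with
              | zero => rfl
              | succ j ih =>
                have h17 : j + 1 + 2 = (j + 2) + 1 := by ring
                rw [h17, pow_succ, ih, ← pow_succ, h14]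
            have hwne : w ≠ [] := by
              rw [← hw']
              simp
            have hne : ∀ k, 0 < k → rep w k ≠ [] := by
              intro k hk
              obtain ⟨j, rfl⟩ := Nat.exists_eq_succ_of_ne_zero hk.ne'
              intro h
              have h18 : rep w j ++ w = [] := h
              rw [List.append_eq_nil_iff] at h18
              exact hwne h18.2
            have h19 : ∀ k, 2 ≤ k → ∃ l, (ev φ w ^ k) ^ (l + 1) = (ev φ w ^ k) ^ l := by
              intro k hk
              have h20 := hap (rep w k) (hne k (by omega)) (W_rep hwB k) (by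
                rw [ev_rep, ← pow_add]
                obtain ⟨j, rfl⟩ := Nat.exists_eq_add_of_le hk
                have h21 : 2 + j + (2 + j) = (2 + j + j) + 2 := by ring
                rw [h21, h16, Nat.add_comm 2 j]
                exact (h16 j).symm)
              rw [ev_rep] at h20
              exact h20
            obtain ⟨k, hk⟩ := aper_two_three (ev φ w) (h19 2 le_rfl) (h19 3 (by norm_num))
            exact ⟨k, Subtype.ext (by rw [h10, h10, hk])⟩
        have h6 := caseL h1 h4 h5 m
        rw [h2] at h6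
        exact h6

/-- Let `ψ` be a map of the letters to a finite monoid through which all languages have height at
most `h`. If the values under `φ` of all nonempty words with idempotent value under `ψ` are
aperiodic, then all languages recognised through `φ` have height at most `h`. -/
theorem straubing {h : ℕ} {α M N : Type} [Finite α] [Monoid M] [Finite M] [Monoid N] [Finite N]
    (ψ : α → N) (hψ : MapLe h ψ) (φ : α → M)
    (hap : ∀ v : List α, v ≠ [] → (v.map ψ).prod * (v.map ψ).prod = (v.map ψ).prod →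
      ∃ k, (v.map φ).prod ^ (k + 1) = (v.map φ).prod ^ k) : MapLe h φ := by
  classical
  intro S
  have := Fintype.ofFinite α
  have h1 : Cl ψ (⋃ m : M, ⋃ _ : m ∈ S, {w | w ∈ W (Finset.univ : Finset α) ∧ ev φ w = m}) :=
    Cl.iUnion fun m => Cl.iUnion_prop fun _ => main_aux (Nat.card M) M le_rfl N α φ ψ Finset.univ
      (fun v hv _ hid => hap v hv hid) m
  refine Eq.mp (congrArg (SH h) ?_) (h1.sh hψ)
  ext w
  simp only [Set.mem_iUnion, exists_prop]
  constructor
  · rintro ⟨m, hm, -, h2⟩
    change ev φ w ∈ S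
    rw [h2]; exact hm
  · intro hw
    exact ⟨_, hw, fun y _ => Finset.mem_univ y, rfl⟩

end Vale.Agent.P329.H162.Str
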